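import Crest.Agent.Lib.Sharp.Hyper

/-!
# Averaging over vertex orders

The degree of the top vertex of a Fourier level set `S`, averaged over all vertex orders, equals the
average degree `r |S| / |V(S)|`.
-/

set_option autoImplicit false

namespace Crest.Agent.Lib.Sharp

open Finset Crest.FinProb Crest.CombinatoricsR.HypergraphCube

variable {n r : ℕ}

/-- The vertices touched by a set of slots. -/
def vS (S : Finset (HyperedgeSlot n r)) : Finset (Fin n) := S.biUnion (fun e => e.1)

/-- The number of slots of `S` containing the top vertex. -/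
def dS (S : Finset (HyperedgeSlot n r)) : ℕ := (S ∩ (hY n r (hT n r S - 1))ᶜ).card

/-- Image of a set of slots under a vertex permutation. -/
def mapS (σ : Equiv.Perm (Fin n)) (S : Finset (HyperedgeSlot n r)) :
    Finset (HyperedgeSlot n r) := S.map (slotPerm σ).toEmbedding

/-- `u` is the `σ`-largest vertex of `V`. -/
def IsTop (σ : Equiv.Perm (Fin n)) (V : Finset (Fin n)) (u : Fin n) : Prop := ∀ w ∈ V, σ w ≤ σ u

/-- The degree of a vertex in a set of slots. -/
def degS (S : Finset (HyperedgeSlot n r)) (u : Fin n) : ℕ := (S.filter (fun e => u ∈ e.1)).card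

lemma mem_vS {S : Finset (HyperedgeSlot n r)} {u : Fin n} :
    u ∈ vS S ↔ ∃ e ∈ S, u ∈ e.1 := by
  simp [vS]

lemma dS_mapS_of_top (σ : Equiv.Perm (Fin n)) (S : Finset (HyperedgeSlot n r)) (u : Fin n)
    (hu : u ∈ vS S) (htop : IsTop σ (vS S) u) : dS (mapS σ S) = degS S u := by
  -- the value of hT
  have hT1 : hT n r (mapS σ S) = (σ u).val + 1 := by
    apply le_antisymm
    · apply Finset.sup_le
      intro e' he'
      apply Finset.sup_le
      intro v' hv'
      obtain ⟨e, he, rfl⟩ := Finset.mem_map.mp he'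
      obtain ⟨v, hv, rfl⟩ := Finset.mem_map.mp hv'
      have h1 : σ v ≤ σ u := htop v (mem_vS.mpr ⟨e, he, hv⟩)
      have h2 : (σ v).val ≤ (σ u).val := h1
      show (σ v).val + 1 ≤ (σ u).val + 1
      omega
    · obtain ⟨e, he, hue⟩ := mem_vS.mp hu
      have h1 : slotPerm σ e ∈ mapS σ S := Finset.mem_map_of_mem _ he
      have h2 : σ u ∈ (slotPerm σ e).1 := (mem_slotPerm σ e u).mpr hue
      have h3 : ((slotPerm σ e).1.sup (fun v => v.val + 1)) ≤ hT n r (mapS σ S) :=
        Finset.le_sup (f := fun e : HyperedgeSlot n r => e.1.sup (fun v => v.val + 1)) h1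
      have h4 : (σ u).val + 1 ≤ (slotPerm σ e).1.sup (fun v => v.val + 1) :=
        Finset.le_sup (f := fun v : Fin n => v.val + 1) h2
      omega
  unfold dS degS
  rw [hT1]
  simp only [Nat.add_sub_cancel]
  have h5 : mapS σ S ∩ (hY n r (σ u).val)ᶜ
      = (S.filter (fun e => u ∈ e.1)).map (slotPerm σ).toEmbedding := by
    ext e'
    simp only [mapS, Finset.mem_inter, Finset.mem_map, Finset.mem_compl, Finset.mem_filter,
      hY, Finset.mem_univ, true_and, not_forall, not_lt]
    constructor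
    · rintro ⟨⟨e, he, rfl⟩, v', hv', hge⟩
      refine ⟨e, ⟨he, ?_⟩, rfl⟩
      obtain ⟨v, hv, rfl⟩ := Finset.mem_map.mp hv'
      have h1 : σ v ≤ σ u := htop v (mem_vS.mpr ⟨e, he, hv⟩)
      have h2 : (σ v).val ≤ (σ u).val := h1
      have h3 : (σ v).val = (σ u).val := le_antisymm h2 hge
      have h4 : v = u := σ.injective (Fin.ext h3)
      rwa [← h4]
    · rintro ⟨e, ⟨he, hue⟩, rfl⟩
      refine ⟨⟨e, he, rfl⟩, σ u, (mem_slotPerm σ e u).mpr hue, le_refl _⟩
  rw [h5, Finset.card_map]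

lemma vS_nonempty (hr : 1 ≤ r) {S : Finset (HyperedgeSlot n r)} (hS : S ≠ ∅) :
    (vS S).Nonempty := by
  obtain ⟨e, he⟩ := Finset.nonempty_iff_ne_empty.mpr hS
  have hne : e.1.Nonempty := by
    rw [← Finset.card_pos, e.2]
    omega
  obtain ⟨v, hv⟩ := hne
  exact ⟨v, mem_vS.mpr ⟨e, he, hv⟩⟩

lemma exists_top (σ : Equiv.Perm (Fin n)) (V : Finset (Fin n)) (hV : V.Nonempty) :
    ∃ u ∈ V, IsTop σ V u := by
  obtain ⟨u, hu, h⟩ := Finset.exists_max_image V σ hV
  exact ⟨u, hu, h⟩

lemma top_unique (σ : Equiv.Perm (Fin n)) (V : Finset (Fin n)) {u u' : Fin n} (hu : u ∈ V)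
    (hu' : u' ∈ V) (h : IsTop σ V u) (h' : IsTop σ V u') : u = u' :=
  σ.injective (le_antisymm (h' u hu) (h u' hu'))

open scoped Classical in
lemma card_top_eq (V : Finset (Fin n)) {u u' : Fin n} (hu : u ∈ V) (hu' : u' ∈ V) :
    (Finset.univ.filter (fun σ : Equiv.Perm (Fin n) => IsTop σ V u)).card
      = (Finset.univ.filter (fun σ : Equiv.Perm (Fin n) => IsTop σ V u')).card := by
  have hself : ∀ (σ : Equiv.Perm (Fin n)),
      σ * Equiv.swap u u' * Equiv.swap u u' = σ := by
    intro σ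
    rw [mul_assoc, Equiv.swap_mul_self, mul_one]
  have hmem : ∀ w ∈ V, Equiv.swap u u' w ∈ V := by
    intro w hw
    by_cases h1 : w = u
    · rw [h1, Equiv.swap_apply_left]; exact hu'
    · by_cases h2 : w = u'
      · rw [h2, Equiv.swap_apply_right]; exact hu
      · rw [Equiv.swap_apply_of_ne_of_ne h1 h2]; exact hw
  refine Finset.card_bij' (fun σ _ => σ * Equiv.swap u u') (fun σ _ => σ * Equiv.swap u u')
    ?_ ?_ ?_ ?_
  · intro σ hσ
    simp only [Finset.mem_filter, Finset.mem_univ, true_and] at hσ ⊢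
    intro w hw
    simp only [Equiv.Perm.mul_apply, Equiv.swap_apply_right]
    exact hσ _ (hmem w hw)
  · intro σ hσ
    simp only [Finset.mem_filter, Finset.mem_univ, true_and] at hσ ⊢
    intro w hw
    simp only [Equiv.Perm.mul_apply, Equiv.swap_apply_left]
    exact hσ _ (hmem w hw)
  · intro σ _
    exact hself σ
  · intro σ _
    exact hself σ

open scoped Classical in
/-- `σ` is the `u`-top permutation with frequency `1 / |V|`. -/
lemma card_mul_card_top (V : Finset (Fin n)) {u : Fin n} (hu : u ∈ V) :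
    (V.card : ℝ) * ((Finset.univ.filter (fun σ : Equiv.Perm (Fin n) => IsTop σ V u)).card : ℝ)
      = (n.factorial : ℝ) := by
  have h1 : ∑ u' ∈ V, ((Finset.univ.filter
      (fun σ : Equiv.Perm (Fin n) => IsTop σ V u')).card : ℝ) = (n.factorial : ℝ) := by
    have h2 : ∀ u' ∈ V, ((Finset.univ.filter
        (fun σ : Equiv.Perm (Fin n) => IsTop σ V u')).card : ℝ)
        = ∑ σ : Equiv.Perm (Fin n), if IsTop σ V u' then (1 : ℝ) else 0 := by
      intro u' _
      rw [Finset.card_filter]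
      push_cast
      rfl
    rw [Finset.sum_congr rfl h2, Finset.sum_comm]
    have h3 : ∀ σ : Equiv.Perm (Fin n), (∑ u' ∈ V, if IsTop σ V u' then (1 : ℝ) else 0) = 1 := by
      intro σ
      obtain ⟨w, hw, htop⟩ := exists_top σ V ⟨u, hu⟩
      rw [Finset.sum_eq_single_of_mem w hw]
      · rw [if_pos htop]
      · intro b hb hbw
        rw [if_neg]
        intro hb'
        exact hbw (top_unique σ V hb hw hb' htop)
    simp only [h3]
    simp [Finset.card_univ, Fintype.card_perm]
  rw [← h1, Finset.sum_congr rfl (fun u' hu' => by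
    rw [card_top_eq V hu' hu]), Finset.sum_const, nsmul_eq_mul]

lemma sum_degS (S : Finset (HyperedgeSlot n r)) :
    ∑ u ∈ vS S, (degS S u : ℝ) = (r : ℝ) * S.card := by
  simp only [degS, Finset.card_filter]
  push_cast
  rw [Finset.sum_comm]
  have h : ∀ e ∈ S, (∑ u ∈ vS S, if u ∈ e.1 then (1 : ℝ) else 0) = r := by
    intro e he
    rw [← Finset.sum_filter, Finset.sum_const, nsmul_eq_mul, mul_one]
    have : (vS S).filter (fun u => u ∈ e.1) = e.1 := by
      ext u
      simp only [Finset.mem_filter]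
      constructor
      · exact fun h => h.2
      · exact fun h => ⟨mem_vS.mpr ⟨e, he, h⟩, h⟩
    rw [this, e.2]
  rw [Finset.sum_congr rfl h, Finset.sum_const, nsmul_eq_mul]
  ring

open scoped Classical in
/-- The average of the top degree over all vertex orders. -/
lemma sum_dS_mapS (hr : 1 ≤ r) (S : Finset (HyperedgeSlot n r)) (hS : S ≠ ∅) :
    ((vS S).card : ℝ) * ∑ σ : Equiv.Perm (Fin n), (dS (mapS σ S) : ℝ)
      = (n.factorial : ℝ) * ((r : ℝ) * S.card) := by
  have hV := vS_nonempty hr hS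
  have h1 : ∀ σ : Equiv.Perm (Fin n), (dS (mapS σ S) : ℝ)
      = ∑ u ∈ vS S, if IsTop σ (vS S) u then (degS S u : ℝ) else 0 := by
    intro σ
    obtain ⟨w, hw, htop⟩ := exists_top σ (vS S) hV
    rw [Finset.sum_eq_single_of_mem w hw]
    · rw [if_pos htop, dS_mapS_of_top σ S w hw htop]
    · intro b hb hbw
      rw [if_neg]
      intro hb'
      exact hbw (top_unique σ _ hb hw hb' htop)
  simp only [h1]
  rw [Finset.sum_comm, Finset.mul_sum, ← sum_degS, Finset.mul_sum]
  refine Finset.sum_congr rfl (fun u hu => ?_)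
  have h2 : (∑ σ : Equiv.Perm (Fin n), if IsTop σ (vS S) u then (degS S u : ℝ) else 0)
      = ((Finset.univ.filter (fun σ : Equiv.Perm (Fin n) => IsTop σ (vS S) u)).card : ℝ)
        * (degS S u : ℝ) := by
    rw [← Finset.sum_filter, Finset.sum_const, nsmul_eq_mul]
  rw [h2, ← mul_assoc, card_mul_card_top _ hu]

lemma dS_mapS_empty (σ : Equiv.Perm (Fin n)) :
    dS (mapS σ (∅ : Finset (HyperedgeSlot n r))) = 0 := by
  simp [dS, mapS]

/-- The weight of a level set in the averaged degree sum. -/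
noncomputable def rhoS (S : Finset (HyperedgeSlot n r)) : ℝ :=
  (r : ℝ) * S.card / (vS S).card

/-- The degree sum, averaged over all orders. -/
theorem A_eq_sum {p : ℝ} (hr : 1 ≤ r) {f : (HyperedgeSlot n r → Bool) → Bool}
    (hf : IsSymmetric f) :
    (hChain n r hr).A p (bF f)
      = ∑ S : Finset (HyperedgeSlot n r),
          if S ≠ ∅ then hat p (bF f) S ^ 2 * rhoS S else 0 := by
  set F := bF f with hF
  set A := (hChain n r hr).A p F with hA
  have hA' : A = ∑ S : Finset (HyperedgeSlot n r), (dS S : ℝ) * hat p F S ^ 2 := rfl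
  -- invariance
  have hinv : ∀ σ : Equiv.Perm (Fin n),
      A = ∑ S : Finset (HyperedgeSlot n r), (dS (mapS σ S) : ℝ) * hat p F S ^ 2 := by
    intro σ
    rw [hA', ← Equiv.sum_comp (Equiv.finsetCongr (slotPerm (r := r) σ))]
    refine Finset.sum_congr rfl (fun S _ => ?_)
    have h1 : Equiv.finsetCongr (slotPerm (r := r) σ) S = mapS σ S := rfl
    rw [h1, mapS, hat_map (slotPerm σ) F (bF_comp_slotPerm hf σ) S]
  have hfact : (0 : ℝ) < n.factorial := by exact_mod_cast Nat.factorial_pos n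
  have hsum : (n.factorial : ℝ) * A
      = ∑ S : Finset (HyperedgeSlot n r),
          hat p F S ^ 2 * ∑ σ : Equiv.Perm (Fin n), (dS (mapS σ S) : ℝ) := by
    have h1 : ∑ _σ : Equiv.Perm (Fin n), A = (n.factorial : ℝ) * A := by
      rw [Finset.sum_const, Finset.card_univ, Fintype.card_perm, Fintype.card_fin, nsmul_eq_mul]
    rw [← h1, Finset.sum_congr rfl (fun σ _ => hinv σ), Finset.sum_comm]
    refine Finset.sum_congr rfl (fun S _ => ?_)
    rw [Finset.mul_sum]
    exact Finset.sum_congr rfl (fun σ _ => by ring)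
  have hfinal : (n.factorial : ℝ) * A = (n.factorial : ℝ) *
      ∑ S : Finset (HyperedgeSlot n r), if S ≠ ∅ then hat p F S ^ 2 * rhoS S else 0 := by
    rw [hsum, Finset.mul_sum]
    refine Finset.sum_congr rfl (fun S _ => ?_)
    by_cases hS : S = ∅
    · subst hS
      simp [dS_mapS_empty]
    · rw [if_pos hS]
      have hV : (0 : ℝ) < ((vS S).card : ℝ) := by
        exact_mod_cast Finset.card_pos.mpr (vS_nonempty hr hS)
      have h2 := sum_dS_mapS hr S hS
      have h3 : ∑ σ : Equiv.Perm (Fin n), (dS (mapS σ S) : ℝ)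
          = (n.factorial : ℝ) * rhoS S := by
        rw [rhoS]
        field_simp
        linarith
      rw [h3]
      ring
  exact mul_left_cancel₀ hfact.ne' hfinal

/-! ### The power bound and Jensen -/

lemma card_le_pow (S : Finset (HyperedgeSlot n r)) : S.card ≤ (vS S).card ^ r := by
  have h1 : S.card ≤ ((vS S).powersetCard r).card := by
    apply Finset.card_le_card_of_injOn (fun e => e.1)
    · intro e he
      refine Finset.mem_coe.mpr (Finset.mem_powersetCard.mpr ⟨?_, e.2⟩)
      intro v hv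
      exact mem_vS.mpr ⟨e, Finset.mem_coe.mp he, hv⟩
    · intro e _ e' _ h
      exact Subtype.ext h
  rw [Finset.card_powersetCard] at h1
  exact h1.trans (Nat.choose_le_pow _ _)

lemma rhoS_nonneg (S : Finset (HyperedgeSlot n r)) : 0 ≤ rhoS S := by
  unfold rhoS
  positivity

/-- The exponent `r / (r - 1)`. -/
noncomputable def expo (r : ℕ) : ℝ := (r : ℝ) / ((r : ℝ) - 1)

lemma one_le_expo (hr : 2 ≤ r) : 1 ≤ expo r := by
  have h : (2 : ℝ) ≤ r := by exact_mod_cast hr
  unfold expo
  rw [le_div_iff₀ (by linarith)]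
  linarith

lemma expo_le_two (hr : 2 ≤ r) : expo r ≤ 2 := by
  have h : (2 : ℝ) ≤ r := by exact_mod_cast hr
  unfold expo
  rw [div_le_iff₀ (by linarith)]
  linarith

/-- The combinatorial estimate `ρ^(r/(r-1)) ≤ r² |S|`. -/
lemma rhoS_rpow_le (hr : 2 ≤ r) (S : Finset (HyperedgeSlot n r)) (hS : S ≠ ∅) :
    rhoS S ^ expo r ≤ (r : ℝ) ^ 2 * S.card := by
  have hr1 : 1 ≤ r := by omega
  have hrR : (2 : ℝ) ≤ r := by exact_mod_cast hr
  have hc : (1 : ℝ) ≤ S.card := by
    exact_mod_cast Finset.card_pos.mpr (Finset.nonempty_iff_ne_empty.mpr hS)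
  have hv : (1 : ℝ) ≤ (vS S).card := by
    exact_mod_cast Finset.card_pos.mpr (vS_nonempty hr1 hS)
  set c : ℝ := ((S.card : ℕ) : ℝ) with hcdef
  set v : ℝ := (((vS S).card : ℕ) : ℝ) with hvdef
  have hcv : c ≤ v ^ r := by
    rw [hcdef, hvdef]
    exact_mod_cast card_le_pow S
  have hrho : rhoS S = (r : ℝ) * (c / v) := by
    rw [rhoS]; ring
  have hq0 : 0 ≤ c / v := by positivity
  -- the main point
  have h1 : (c / v) ^ r ≤ c ^ (r - 1) := by
    have h2 : c ^ r = c ^ (r - 1) * c := by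
      rw [← pow_succ]
      congr 1
      omega
    rw [div_pow, div_le_iff₀ (by positivity), h2]
    exact mul_le_mul_of_nonneg_left hcv (by positivity)
  have hr1' : ((r - 1 : ℕ) : ℝ) = (r : ℝ) - 1 := by
    rw [Nat.cast_sub (by omega)]; simp
  have h3 : (c / v) ^ expo r ≤ c := by
    have e1 : expo r = (r : ℝ) * ((((r - 1 : ℕ) : ℝ))⁻¹) := by
      rw [expo, hr1']; rfl
    rw [e1, Real.rpow_mul hq0, Real.rpow_natCast]
    have h4 : ((c / v) ^ r) ^ (((r - 1 : ℕ) : ℝ)⁻¹) ≤ (c ^ (r - 1)) ^ (((r - 1 : ℕ) : ℝ)⁻¹) := by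
      apply Real.rpow_le_rpow (by positivity) h1
      positivity
    have h5 : (c ^ (r - 1)) ^ (((r - 1 : ℕ) : ℝ)⁻¹) = c :=
      Real.pow_rpow_inv_natCast (by positivity) (by omega)
    rwa [h5] at h4
  have h6 : (r : ℝ) ^ expo r ≤ (r : ℝ) ^ 2 := by
    have := Real.rpow_le_rpow_of_exponent_le (by linarith : (1 : ℝ) ≤ r) (expo_le_two hr)
    simpa using this
  rw [hrho, Real.mul_rpow (by positivity) hq0]
  exact mul_le_mul h6 h3 (Real.rpow_nonneg hq0 _) (by positivity)

/-- Jensen over the Fourier weights. -/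
theorem jensen_A {p : ℝ} (hp : 0 < p) (hp1 : p < 1) (hr : 2 ≤ r)
    {f : (HyperedgeSlot n r → Bool) → Bool} (hf : IsSymmetric f)
    (hVar : 0 < EE p (fun x => bF f x ^ 2) - (EE p (bF f)) ^ 2) :
    ((hChain n r (by omega)).A p (bF f) / (EE p (fun x => bF f x ^ 2) - (EE p (bF f)) ^ 2))
        ^ expo r
      ≤ (r : ℝ) ^ 2 * ((∑ e, energy p e (bF f))
          / (EE p (fun x => bF f x ^ 2) - (EE p (bF f)) ^ 2)) := by
  set F := bF f with hF
  set Var := EE p (fun x => F x ^ 2) - (EE p F) ^ 2 with hVardef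
  set s := (Finset.univ : Finset (Finset (HyperedgeSlot n r))).filter (fun S => S ≠ ∅) with hs
  have hVsum : Var = ∑ S ∈ s, hat p F S ^ 2 := by
    rw [hVardef, var_eq_sum hp hp1, hs, Finset.sum_filter]
  have hA : (hChain n r (by omega)).A p F = ∑ S ∈ s, hat p F S ^ 2 * rhoS S := by
    rw [A_eq_sum (by omega) hf, hs, Finset.sum_filter]
  have hEn : ∑ e, energy p e F = ∑ S : Finset (HyperedgeSlot n r), (S.card : ℝ) * hat p F S ^ 2 := by
    rw [sum_energy_eq hp hp1]
    simp only [Finset.inter_univ]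
  have hJ := Real.rpow_arith_mean_le_arith_mean_rpow s (fun S => hat p F S ^ 2 / Var) rhoS
    (fun S _ => by positivity)
    (by rw [← Finset.sum_div, ← hVsum]; exact div_self hVar.ne')
    (fun S _ => rhoS_nonneg S)
    (one_le_expo hr)
  have e1 : ∑ S ∈ s, hat p F S ^ 2 / Var * rhoS S = (hChain n r (by omega)).A p F / Var := by
    rw [hA, Finset.sum_div]
    exact Finset.sum_congr rfl (fun S _ => by ring)
  rw [e1] at hJ
  refine hJ.trans ?_
  rw [hEn, Finset.sum_div, Finset.mul_sum]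
  have hle : ∑ S ∈ s, hat p F S ^ 2 / Var * rhoS S ^ expo r
      ≤ ∑ S ∈ s, (r : ℝ) ^ 2 * ((S.card : ℝ) * hat p F S ^ 2 / Var) := by
    refine Finset.sum_le_sum (fun S hS => ?_)
    have hS' : S ≠ ∅ := (Finset.mem_filter.mp hS).2
    have h1 := rhoS_rpow_le hr S hS'
    have h2 : 0 ≤ hat p F S ^ 2 / Var := by positivity
    calc hat p F S ^ 2 / Var * rhoS S ^ expo r
        ≤ hat p F S ^ 2 / Var * ((r : ℝ) ^ 2 * S.card) := mul_le_mul_of_nonneg_left h1 h2
      _ = _ := by ring
  refine hle.trans ?_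
  exact Finset.sum_le_sum_of_subset_of_nonneg (Finset.filter_subset _ _)
    (fun S _ _ => by positivity)

end Crest.Agent.Lib.Sharp
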