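import Crest.Agent.Lib.Sharp.LogSob

/-!
# Blocks, exchangeability and the martingale chain

The abstract core of the sharp threshold estimate.
-/

set_option autoImplicit false

namespace Crest.Agent.Lib.Sharp

open Finset Crest.FinProb

variable {X : Type*} [Fintype X] [DecidableEq X]

lemma hat_const {p : ℝ} (hp : 0 < p) (hp1 : p < 1) (c : ℝ) (S : Finset X) :
    hat p (fun _ => c) S = if S = ∅ then c else 0 := by
  rw [hat, EE_const_mul, EE_chi hp hp1]
  split_ifs <;> simp

lemma EE_sq_cE_sub {p : ℝ} (hp : 0 < p) (hp1 : p < 1) (Z : Finset X) (F : (X → Bool) → ℝ) :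
    EE p (fun x => (cE p Z F x - EE p F) ^ 2)
      = ∑ S : Finset X, if S ≠ ∅ ∧ S ⊆ Z then hat p F S ^ 2 else 0 := by
  rw [EE_sq_eq hp hp1]
  refine Finset.sum_congr rfl (fun S _ => ?_)
  rw [hat_sub, hat_cE hp hp1, hat_const hp hp1]
  by_cases h0 : S = ∅
  · subst h0
    simp
  · by_cases hS : S ⊆ Z
    · simp [h0, hS]
    · simp [h0, hS]

lemma var_eq_sum {p : ℝ} (hp : 0 < p) (hp1 : p < 1) (F : (X → Bool) → ℝ) :
    EE p (fun x => F x ^ 2) - (EE p F) ^ 2
      = ∑ S : Finset X, if S ≠ ∅ then hat p F S ^ 2 else 0 := by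
  rw [EE_sq_eq hp hp1]
  rw [← hat_empty p F, ← Finset.add_sum_erase _ _ (Finset.mem_univ (∅ : Finset X)),
    ← Finset.add_sum_erase (Finset.univ) (fun S : Finset X => if S ≠ ∅ then hat p F S ^ 2 else 0)
      (Finset.mem_univ (∅ : Finset X))]
  simp only [ne_eq, not_true_eq_false, if_false, zero_add, add_sub_cancel_left]
  refine Finset.sum_congr rfl (fun S hS => ?_)
  rw [if_pos (Finset.mem_erase.mp hS).1]

/-- Bessel's inequality for pairwise disjoint blocks of coordinates. -/
lemma bessel_blocks {p : ℝ} (hp : 0 < p) (hp1 : p < 1) {ι : Type*} [DecidableEq ι]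
    (J : Finset ι) (Z : ι → Finset X)
    (hZ : ∀ j ∈ J, ∀ k ∈ J, j ≠ k → Disjoint (Z j) (Z k)) (F : (X → Bool) → ℝ) :
    ∑ j ∈ J, EE p (fun x => (cE p (Z j) F x - EE p F) ^ 2)
      ≤ EE p (fun x => F x ^ 2) - (EE p F) ^ 2 := by
  rw [var_eq_sum hp hp1]
  simp only [EE_sq_cE_sub hp hp1]
  rw [Finset.sum_comm]
  refine Finset.sum_le_sum (fun S _ => ?_)
  by_cases h0 : S = ∅
  · simp [h0]
  · simp only [ne_eq, h0, not_false_eq_true, true_and, if_true]
    by_cases hex : ∃ j ∈ J, S ⊆ Z j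
    · obtain ⟨j, hj, hjS⟩ := hex
      rw [Finset.sum_eq_single_of_mem j hj]
      · rw [if_pos hjS]
      · intro k hk hkj
        rw [if_neg]
        intro hkS
        have hd := hZ j hj k hk hkj.symm
        obtain ⟨e, he⟩ := Finset.nonempty_iff_ne_empty.mpr h0
        exact (Finset.disjoint_left.mp hd) (hjS he) (hkS he)
    · push_neg at hex
      rw [Finset.sum_eq_zero]
      · exact sq_nonneg _
      · intro j hj
        rw [if_neg (hex j hj)]

lemma var_le_quarter {p : ℝ} (hp : 0 < p) (hp1 : p < 1) (F : (X → Bool) → ℝ)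
    (h0 : ∀ x, 0 ≤ F x) (h1 : ∀ x, F x ≤ 1) :
    EE p (fun x => F x ^ 2) - (EE p F) ^ 2 ≤ 1 / 4 := by
  have h2 : EE p (fun x => F x ^ 2) ≤ EE p F :=
    EE_mono hp.le hp1.le (fun x => by nlinarith [h0 x, h1 x])
  nlinarith [sq_nonneg (EE p F - 1 / 2)]

/-- Exchangeability: for every value of the past, the one-step martingale difference is small. -/
theorem exchange {p : ℝ} (hp : 0 < p) (hp1 : p < 1) (F : (X → Bool) → ℝ)
    (h0 : ∀ x, 0 ≤ F x) (h1 : ∀ x, F x ≤ 1) (Y : Finset X)
    {ι : Type*} [DecidableEq ι] (J : Finset ι) (Z : ι → Finset X) (i : ι)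
    (hZ : ∀ j ∈ J, ∀ k ∈ J, j ≠ k → Disjoint (Z j) (Z k))
    (π : ι → Equiv.Perm X)
    (hπinv : ∀ j ∈ J, ∀ e, π j (π j e) = e)
    (hπF : ∀ j ∈ J, ∀ x, F (x ∘ π j) = F x)
    (hπY : ∀ j ∈ J, ∀ e ∈ Y, π j e = e)
    (hπZ : ∀ j ∈ J, ∀ e, π j e ∈ Z i ↔ e ∈ Z j)
    (ω : X → Bool) :
    (J.card : ℝ) * EE p (fun x => (cE p (Y ∪ Z i) F (glue Y ω x) - cE p Y F (glue Y ω x)) ^ 2)
      ≤ 1 / 4 := by
  set Fω : (X → Bool) → ℝ := fun x => F (glue Y ω x) with hFω
  set u : ι → (X → Bool) → ℝ := fun j x => cE p (Z j) Fω x - EE p Fω with hu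
  -- identification of the difference
  have hid : ∀ x, cE p (Y ∪ Z i) F (glue Y ω x) - cE p Y F (glue Y ω x) = u i x := by
    intro x
    have e1 : cE p (Y ∪ Z i) F (glue Y ω x) = cE p (Z i) Fω x := by
      simp only [cE, hFω]
      refine EE_congr p (fun y => ?_)
      congr 1
      funext e
      by_cases h1 : e ∈ Y <;> by_cases h2 : e ∈ Z i <;> simp [glue, h1, h2]
    have e2 : cE p Y F (glue Y ω x) = EE p Fω := by
      simp only [cE, hFω]
      refine EE_congr p (fun y => ?_)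
      congr 1
      funext e
      by_cases h1 : e ∈ Y <;> simp [glue, h1]
    rw [e1, e2]
  simp only [hid]
  -- equal norms
  have hnorm : ∀ j ∈ J, EE p (fun x => u j x ^ 2) = EE p (fun x => u i x ^ 2) := by
    intro j hj
    have hpt : ∀ x, u i (x ∘ π j) = u j x := by
      intro x
      simp only [hu]
      congr 1
      simp only [cE, hFω]
      have h2 : ∀ y : X → Bool,
          F (glue Y ω (glue (Z i) (x ∘ π j) y))
            = F (glue Y ω (glue (Z j) x (y ∘ π j))) := by
        intro y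
        rw [← hπF j hj (glue Y ω (glue (Z i) (x ∘ π j) y))]
        congr 1
        funext e
        by_cases hY : e ∈ Y
        · simp [glue, hY, hπY j hj e hY]
        · have hY' : π j e ∉ Y := by
            intro h
            have h3 := hπY j hj _ h
            rw [hπinv j hj e] at h3
            exact hY (by rw [h3]; exact h)
          by_cases hZ' : e ∈ Z j
          · have : π j e ∈ Z i := (hπZ j hj e).mpr hZ'
            simp [glue, hY, hY', this, hZ', hπinv j hj e]
          · have : π j e ∉ Z i := fun h => hZ' ((hπZ j hj e).mp h)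
            simp [glue, hY, hY', this, hZ']
      simp only [h2]
      exact EE_comp_perm p (π j) (fun y => F (glue Y ω (glue (Z j) x y)))
    rw [← EE_comp_perm p (π j) (fun x => u i x ^ 2)]
    refine EE_congr p (fun x => ?_)
    rw [hpt x]
  have hbess := bessel_blocks hp hp1 J Z hZ Fω
  have hq := var_le_quarter hp hp1 Fω (fun x => h0 _) (fun x => h1 _)
  have hsum : ∑ j ∈ J, EE p (fun x => u j x ^ 2)
      = (J.card : ℝ) * EE p (fun x => u i x ^ 2) := by
    rw [Finset.sum_congr rfl hnorm, Finset.sum_const, nsmul_eq_mul]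
  rw [← hsum]
  exact hbess.trans hq

/-! ### The inner inequality, integrated over the past -/

lemma EE_EE_glue' (p : ℝ) (Y : Finset X) (K : (X → Bool) → ℝ) :
    EE p (fun ω => EE p (fun x => K (glue Y ω x))) = EE p K := EE_EE_glue p Y K

lemma energy_glue_mem (p : ℝ) (Y : Finset X) (d : (X → Bool) → ℝ) (ω : X → Bool) (e : X)
    (he : e ∈ Y) : energy p e (fun x => d (glue Y ω x)) = 0 := by
  have h : ∀ x b, glue Y ω (Function.update x e b) = glue Y ω x := by
    intro x b
    funext j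
    by_cases hj : j ∈ Y
    · simp [glue, hj]
    · have : j ≠ e := fun h => hj (h ▸ he)
      simp [glue, hj, Function.update_of_ne this]
  simp [energy, DD, h, EE_const]

lemma energy_glue_not_mem (p : ℝ) (Y : Finset X) (d : (X → Bool) → ℝ) (e : X)
    (he : e ∉ Y) :
    EE p (fun ω => energy p e (fun x => d (glue Y ω x))) = energy p e d := by
  have h : ∀ (ω x : X → Bool) (b : Bool),
      glue Y ω (Function.update x e b) = Function.update (glue Y ω x) e b := by
    intro ω x b
    funext j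
    by_cases hje : j = e
    · subst hje; simp [glue, he]
    · rw [Function.update_of_ne hje]
      by_cases hj : j ∈ Y
      · simp [glue, hj]
      · simp [glue, hj, Function.update_of_ne hje]
  have h2 : ∀ (ω x : X → Bool), DD e (fun x => d (glue Y ω x)) x = DD e d (glue Y ω x) := by
    intro ω x
    simp only [DD, h]
  simp only [energy, h2]
  rw [EE_const_mul]
  congr 1
  exact EE_EE_glue p Y (fun x => DD e d x ^ 2)

/-- The inner inequality, integrated over the past. -/
theorem inner_ineq {p : ℝ} (hp : 0 < p) (hp1 : p < 1) (d : (X → Bool) → ℝ) (Y : Finset X)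
    {a b : ℝ} (ha : 0 < a) (hb : 0 < b)
    (hex : ∀ ω, EE p (fun x => d (glue Y ω x) ^ 2) ≤ b * a ^ 2) :
    Real.log (1 / b) * EE p (fun x => d x ^ 2 * (if a ≤ |d x| then 1 else 0))
      ≤ lsc p * ∑ e ∈ Yᶜ, energy p e d + Real.log 2 * EE p (fun x => d x ^ 2) := by
  have hω : ∀ ω, Real.log (1 / b) *
        EE p (fun x => d (glue Y ω x) ^ 2 * (if a ≤ |d (glue Y ω x)| then 1 else 0))
      ≤ lsc p * ∑ e, energy p e (fun x => d (glue Y ω x))
        + Real.log 2 * EE p (fun x => d (glue Y ω x) ^ 2) := by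
    intro ω
    have h1 := tail_entropy hp hp1 (fun x => d (glue Y ω x)) ha hb (hex ω)
    have h2 := log_sobolev hp hp1 (fun x => d (glue Y ω x))
    linarith
  have hint := EE_mono hp.le hp1.le hω
  rw [EE_const_mul, EE_add, EE_const_mul, EE_const_mul, EE_sum] at hint
  rw [EE_EE_glue' p Y (fun x => d x ^ 2 * (if a ≤ |d x| then 1 else 0)),
    EE_EE_glue' p Y (fun x => d x ^ 2)] at hint
  have hsum : ∑ e, EE p (fun ω => energy p e (fun x => d (glue Y ω x)))
      = ∑ e ∈ Yᶜ, energy p e d := by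
    rw [← Finset.sum_add_sum_compl Y]
    have h3 : ∑ e ∈ Y, EE p (fun ω => energy p e (fun x => d (glue Y ω x))) = 0 := by
      refine Finset.sum_eq_zero (fun e he => ?_)
      simp only [energy_glue_mem p Y d _ e he]
      exact EE_const p 0
    rw [h3, zero_add]
    refine Finset.sum_congr rfl (fun e he => ?_)
    exact energy_glue_not_mem p Y d e (Finset.mem_compl.mp he)
  rw [hsum] at hint
  exact hint

/-! ### The chain -/

/-- A filtration of the coordinates, with the index function. -/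
structure Chain (X : Type*) [Fintype X] [DecidableEq X] (n : ℕ) where
  /-- the increasing sets of coordinates -/
  Y : ℕ → Finset X
  /-- first index at which a set of coordinates is contained in `Y` -/
  T : Finset X → ℕ
  le_iff : ∀ S j, S ⊆ Y j ↔ T S ≤ j
  T_pos : ∀ S : Finset X, S ≠ ∅ → 0 < T S
  T_empty : T ∅ = 0
  T_le : ∀ S, T S ≤ n

/-- The martingale difference. -/
noncomputable def dM (p : ℝ) (F : (X → Bool) → ℝ) (Y : ℕ → Finset X) (i : ℕ) (x : X → Bool) : ℝ :=
  cE p (Y (i + 1)) F x - cE p (Y i) F x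

section chain

variable {n : ℕ} (C : Chain X n) {p : ℝ} (hp : 0 < p) (hp1 : p < 1) (F : (X → Bool) → ℝ)
include hp hp1

lemma hat_dM (i : ℕ) (S : Finset X) :
    hat p (dM p F C.Y i) S = if C.T S = i + 1 then hat p F S else 0 := by
  have h : dM p F C.Y i = fun x => cE p (C.Y (i + 1)) F x - cE p (C.Y i) F x := rfl
  rw [h, hat_sub, hat_cE hp hp1, hat_cE hp hp1]
  simp only [C.le_iff]
  by_cases h1 : C.T S ≤ i
  · have h2 : C.T S ≤ i + 1 := by omega
    have h3 : C.T S ≠ i + 1 := by omega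
    simp [h1, h2, h3]
  · by_cases h2 : C.T S ≤ i + 1
    · have h3 : C.T S = i + 1 := by omega
      simp [h1, h3]
    · have h3 : C.T S ≠ i + 1 := by omega
      simp [h1, h2, h3]

lemma EE_dM_sq (i : ℕ) :
    EE p (fun x => dM p F C.Y i x ^ 2)
      = ∑ S : Finset X, if C.T S = i + 1 then hat p F S ^ 2 else 0 := by
  rw [EE_sq_eq hp hp1]
  refine Finset.sum_congr rfl (fun S _ => ?_)
  rw [hat_dM C hp hp1]
  split_ifs <;> simp

lemma sum_ite_T (S : Finset X) (c : ℕ → ℝ) :
    (∑ i ∈ Finset.range n, if C.T S = i + 1 then c i else 0)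
      = if S ≠ ∅ then c (C.T S - 1) else 0 := by
  by_cases h0 : S = ∅
  · subst h0
    rw [if_neg (by simp)]
    refine Finset.sum_eq_zero (fun i _ => ?_)
    rw [C.T_empty, if_neg (by omega)]
  · have hpos := C.T_pos S h0
    have hle := C.T_le S
    rw [if_pos h0]
    rw [Finset.sum_eq_single (C.T S - 1)]
    · rw [if_pos (by omega)]
    · intro i _ hi
      rw [if_neg (by omega)]
    · intro h
      exact absurd (Finset.mem_range.mpr (by omega)) h

lemma sum_EE_dM_sq :
    ∑ i ∈ Finset.range n, EE p (fun x => dM p F C.Y i x ^ 2)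
      = EE p (fun x => F x ^ 2) - (EE p F) ^ 2 := by
  rw [var_eq_sum hp hp1]
  simp only [EE_dM_sq C hp hp1]
  rw [Finset.sum_comm]
  refine Finset.sum_congr rfl (fun S _ => ?_)
  exact sum_ite_T C hp hp1 S (fun _ => hat p F S ^ 2)

omit hp hp1 in
lemma cE_univ (G : (X → Bool) → ℝ) (x : X → Bool) : cE p Finset.univ G x = G x := by
  have : ∀ y : X → Bool, glue Finset.univ x y = x := by
    intro y; funext e; simp [glue]
  simp only [cE, this]
  exact EE_const p _

omit hp hp1 in
lemma cE_sub (C' : Finset X) (g h : (X → Bool) → ℝ) (x : X → Bool) :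
    cE p C' (fun z => g z - h z) x = cE p C' g x - cE p C' h x := by
  simp only [cE]
  exact EE_sub p _ _

/-- Telescoping the `L¹` norm over a set of coordinates. -/
lemma L1_telescope (B : Finset X) :
    EE p (fun x => |F x - cE p Bᶜ F x|) ≤ ∑ e ∈ B, EE p (fun x => |Res p e F x|) := by
  induction B using Finset.induction_on with
  | empty =>
    simp only [Finset.compl_empty, cE_univ, sub_self, abs_zero, Finset.sum_empty]
    exact le_of_eq (EE_const p 0)
  | insert e B he ih =>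
    rw [Finset.sum_insert he]
    have h1 : ∀ x, F x - cE p (insert e B)ᶜ F x
        = Res p e F x + cE p (Finset.univ.erase e) (fun z => F z - cE p Bᶜ F z) x := by
      intro x
      rw [cE_sub, cE_cE hp hp1]
      have h2 : Finset.univ.erase e ∩ Bᶜ = (insert e B)ᶜ := by
        ext j
        simp only [Finset.mem_inter, Finset.mem_erase, Finset.mem_univ, and_true,
          Finset.mem_compl, Finset.mem_insert, not_or]
      rw [h2, Res]
      ring
    have h2 : EE p (fun x => |F x - cE p (insert e B)ᶜ F x|)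
        ≤ EE p (fun x => |Res p e F x|
            + |cE p (Finset.univ.erase e) (fun z => F z - cE p Bᶜ F z) x|) := by
      apply EE_mono hp.le hp1.le
      intro x
      rw [h1]
      exact abs_add_le _ _
    rw [EE_add] at h2
    have h3 := EE_abs_cE_le hp hp1 (Finset.univ.erase e) (fun z => F z - cE p Bᶜ F z)
    linarith

/-- `L¹` bound of a martingale difference by the residuals of its star. -/
lemma EE_abs_dM_le (i : ℕ) :
    EE p (fun x => |dM p F C.Y i x|)
      ≤ ∑ e ∈ C.Y (i + 1) \ C.Y i, EE p (fun x => |Res p e F x|) := by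
  have hmono : C.Y i ⊆ C.Y (i + 1) := by
    intro e he
    have h1 : ({e} : Finset X) ⊆ C.Y i := by simpa using he
    have h2 := (C.le_iff _ _).mp h1
    have h3 := (C.le_iff {e} (i + 1)).mpr (by omega)
    simpa using h3
  have h1 : ∀ x, dM p F C.Y i x
      = cE p (C.Y (i + 1)) (fun z => F z - cE p (C.Y (i + 1) \ C.Y i)ᶜ F z) x := by
    intro x
    rw [cE_sub, cE_cE hp hp1, dM]
    congr 2
    ext e
    simp only [Finset.mem_inter, Finset.mem_compl, Finset.mem_sdiff, not_and, not_not]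
    constructor
    · intro he
      exact ⟨hmono he, fun _ => he⟩
    · rintro ⟨h1, h2⟩
      exact h2 h1
  simp only [h1]
  refine (EE_abs_cE_le hp hp1 _ _).trans ?_
  exact L1_telescope hp hp1 F _

/-- For Boolean functions `|Res|` integrates to twice the energy. -/
lemma EE_abs_Res_bool (hF : ∀ x, F x = 0 ∨ F x = 1) (e : X) :
    EE p (fun x => |Res p e F x|) = 2 * energy p e F := by
  rw [EE_abs_Res p hp hp1, energy]
  have h : ∀ x, |DD e F x| = DD e F x ^ 2 := by
    intro x
    simp only [DD]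
    rcases hF (Function.update x e true) with h1 | h1 <;>
      rcases hF (Function.update x e false) with h2 | h2 <;> rw [h1, h2] <;> norm_num
  simp only [h]
  ring

lemma mem_star_iff (i : ℕ) (e : X) : e ∈ C.Y (i + 1) \ C.Y i ↔ C.T {e} = i + 1 := by
  have h1 := C.le_iff {e} (i + 1)
  have h2 := C.le_iff {e} i
  simp only [Finset.singleton_subset_iff] at h1 h2
  rw [Finset.mem_sdiff, h1, h2]
  omega

/-- The total `L¹` norm of the martingale differences is at most twice the total energy. -/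
lemma sum_EE_abs_dM_le (hF : ∀ x, F x = 0 ∨ F x = 1) :
    ∑ i ∈ Finset.range n, EE p (fun x => |dM p F C.Y i x|) ≤ 2 * ∑ e, energy p e F := by
  have h1 : ∀ i ∈ Finset.range n, EE p (fun x => |dM p F C.Y i x|)
      ≤ ∑ e, if C.T {e} = i + 1 then 2 * energy p e F else 0 := by
    intro i _
    refine (EE_abs_dM_le C hp hp1 F i).trans (le_of_eq ?_)
    simp only [EE_abs_Res_bool hp hp1 F hF]
    rw [← Finset.sum_filter]
    refine Finset.sum_congr ?_ (fun _ _ => rfl)
    ext e
    simp [mem_star_iff C hp hp1]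
  refine (Finset.sum_le_sum h1).trans ?_
  rw [Finset.sum_comm, Finset.mul_sum]
  refine Finset.sum_le_sum (fun e _ => ?_)
  have h2 : ({e} : Finset X) ≠ ∅ := Finset.singleton_ne_empty e
  rw [sum_ite_T C hp hp1 {e} (fun _ => 2 * energy p e F), if_pos h2]

/-- The weighted degree sum on the Fourier side. -/
noncomputable def Chain.A (C : Chain X n) (p : ℝ) (F : (X → Bool) → ℝ) : ℝ :=
  ∑ S : Finset X, ((S ∩ (C.Y (C.T S - 1))ᶜ).card : ℝ) * hat p F S ^ 2

lemma sum_energy_dM (i : ℕ) :
    ∑ e ∈ (C.Y i)ᶜ, energy p e (dM p F C.Y i)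
      = ∑ S : Finset X, if C.T S = i + 1 then
          ((S ∩ (C.Y i)ᶜ).card : ℝ) * hat p F S ^ 2 else 0 := by
  rw [sum_energy_eq hp hp1]
  refine Finset.sum_congr rfl (fun S _ => ?_)
  rw [hat_dM C hp hp1]
  split_ifs <;> simp

lemma A_nonneg : 0 ≤ C.A p F :=
  Finset.sum_nonneg (fun S _ => mul_nonneg (by positivity) (sq_nonneg _))

lemma sum_sum_energy_dM_le (I : Finset ℕ) (hI : I ⊆ Finset.range n) :
    ∑ i ∈ I, ∑ e ∈ (C.Y i)ᶜ, energy p e (dM p F C.Y i) ≤ C.A p F := by
  have h1 : ∑ i ∈ I, ∑ e ∈ (C.Y i)ᶜ, energy p e (dM p F C.Y i)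
      ≤ ∑ i ∈ Finset.range n, ∑ e ∈ (C.Y i)ᶜ, energy p e (dM p F C.Y i) := by
    refine Finset.sum_le_sum_of_subset_of_nonneg hI (fun i _ _ => ?_)
    exact Finset.sum_nonneg (fun e _ => energy_nonneg hp hp1 e _)
  refine h1.trans (le_of_eq ?_)
  simp only [sum_energy_dM C hp hp1]
  rw [Finset.sum_comm, Chain.A]
  refine Finset.sum_congr rfl (fun S _ => ?_)
  rw [sum_ite_T C hp hp1 S (fun i => ((S ∩ (C.Y i)ᶜ).card : ℝ) * hat p F S ^ 2)]
  by_cases h0 : S = ∅
  · subst h0
    simp
  · rw [if_pos h0]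

/-- The main abstract inequality. -/
theorem chain_main (hF : ∀ x, F x = 0 ∨ F x = 1) {t a : ℝ} (ht : 0 < t) (ha : 0 < a)
    (hb : 1 ≤ 4 * t * a ^ 2)
    (hex : ∀ i < n, t ≤ ((n - i : ℕ) : ℝ) → ∀ ω,
      ((n - i : ℕ) : ℝ) * EE p (fun x => dM p F C.Y i (glue (C.Y i) ω x) ^ 2) ≤ 1 / 4) :
    Real.log (4 * t * a ^ 2) *
        (EE p (fun x => F x ^ 2) - (EE p F) ^ 2
          - ∑ i ∈ (Finset.range n).filter (fun i => ¬ t ≤ ((n - i : ℕ) : ℝ)),
              EE p (fun x => dM p F C.Y i x ^ 2)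
          - 2 * a * ∑ e, energy p e F)
      ≤ lsc p * C.A p F + Real.log 2 * (EE p (fun x => F x ^ 2) - (EE p F) ^ 2) := by
  classical
  set I := (Finset.range n).filter (fun i => t ≤ ((n - i : ℕ) : ℝ)) with hI
  set Ic := (Finset.range n).filter (fun i => ¬ t ≤ ((n - i : ℕ) : ℝ)) with hIc
  set Var := EE p (fun x => F x ^ 2) - (EE p F) ^ 2 with hVar
  set En := ∑ e, energy p e F with hEn
  set b := 1 / (4 * t * a ^ 2) with hbdef
  have hb0 : 0 < b := by positivity
  have hlogb : Real.log (1 / b) = Real.log (4 * t * a ^ 2) := by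
    rw [hbdef, one_div_one_div]
  have hΛ : 0 ≤ Real.log (4 * t * a ^ 2) := Real.log_nonneg hb
  have hsumI : ∑ i ∈ I, EE p (fun x => dM p F C.Y i x ^ 2)
      + ∑ i ∈ Ic, EE p (fun x => dM p F C.Y i x ^ 2) = Var := by
    rw [hI, hIc, Finset.sum_filter_add_sum_filter_not, sum_EE_dM_sq C hp hp1]
  -- the inner inequality for every i in I
  have hinner : ∀ i ∈ I, Real.log (4 * t * a ^ 2) *
      EE p (fun x => dM p F C.Y i x ^ 2 * (if a ≤ |dM p F C.Y i x| then 1 else 0))
      ≤ lsc p * ∑ e ∈ (C.Y i)ᶜ, energy p e (dM p F C.Y i)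
        + Real.log 2 * EE p (fun x => dM p F C.Y i x ^ 2) := by
    intro i hi
    obtain ⟨hin, hti⟩ := Finset.mem_filter.mp hi
    have hin' := Finset.mem_range.mp hin
    rw [← hlogb]
    apply inner_ineq hp hp1 _ _ ha hb0
    intro ω
    have h1 := hex i hin' hti ω
    have hbe : b * a ^ 2 = 1 / (4 * t) := by
      rw [hbdef]; field_simp
    rw [hbe]
    have h2 : 0 ≤ EE p (fun x => dM p F C.Y i (glue (C.Y i) ω x) ^ 2) :=
      EE_nonneg hp.le hp1.le (fun x => sq_nonneg _)
    rw [le_div_iff₀ (by positivity)]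
    have h3 : t * EE p (fun x => dM p F C.Y i (glue (C.Y i) ω x) ^ 2) ≤ 1 / 4 :=
      (mul_le_mul_of_nonneg_right hti h2).trans h1
    linarith
  have hsum1 := Finset.sum_le_sum hinner
  rw [← Finset.mul_sum, Finset.sum_add_distrib, ← Finset.mul_sum, ← Finset.mul_sum] at hsum1
  -- bounding the degree term and the Var term
  have hIsub : I ⊆ Finset.range n := Finset.filter_subset _ _
  have hA := sum_sum_energy_dM_le C hp hp1 F I hIsub
  have hlsc := lsc_nonneg p hp hp1
  have hlog2 : 0 ≤ Real.log 2 := Real.log_nonneg (by norm_num)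
  have hIcnn : 0 ≤ ∑ i ∈ Ic, EE p (fun x => dM p F C.Y i x ^ 2) :=
    Finset.sum_nonneg (fun i _ => EE_nonneg hp.le hp1.le (fun x => sq_nonneg _))
  have hIle : ∑ i ∈ I, EE p (fun x => dM p F C.Y i x ^ 2) ≤ Var := by linarith
  -- lower bound on the big part
  have hsmall : ∀ i, EE p (fun x => dM p F C.Y i x ^ 2)
      ≤ EE p (fun x => dM p F C.Y i x ^ 2 * (if a ≤ |dM p F C.Y i x| then 1 else 0))
        + a * EE p (fun x => |dM p F C.Y i x|) := by
    intro i
    rw [← EE_const_mul, ← EE_add]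
    apply EE_mono hp.le hp1.le
    intro x
    split_ifs with h
    · have : 0 ≤ a * |dM p F C.Y i x| := by positivity
      linarith
    · push_neg at h
      have h2 : dM p F C.Y i x ^ 2 = |dM p F C.Y i x| * |dM p F C.Y i x| := by
        rw [abs_mul_abs_self]; ring
      have h3 : |dM p F C.Y i x| * |dM p F C.Y i x| ≤ a * |dM p F C.Y i x| :=
        mul_le_mul_of_nonneg_right h.le (abs_nonneg _)
      rw [h2]
      linarith
  have hL1 := sum_EE_abs_dM_le C hp hp1 F hF
  have hL1nn : ∀ i, 0 ≤ EE p (fun x => |dM p F C.Y i x|) :=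
    fun i => EE_nonneg hp.le hp1.le (fun x => abs_nonneg _)
  have hbig : Var - ∑ i ∈ Ic, EE p (fun x => dM p F C.Y i x ^ 2) - 2 * a * En
      ≤ ∑ i ∈ I, EE p (fun x => dM p F C.Y i x ^ 2 * (if a ≤ |dM p F C.Y i x| then 1 else 0)) := by
    have h1 : ∑ i ∈ I, EE p (fun x => dM p F C.Y i x ^ 2)
        ≤ ∑ i ∈ I, EE p (fun x => dM p F C.Y i x ^ 2 * (if a ≤ |dM p F C.Y i x| then 1 else 0))
          + a * ∑ i ∈ I, EE p (fun x => |dM p F C.Y i x|) := by
      rw [Finset.mul_sum, ← Finset.sum_add_distrib]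
      exact Finset.sum_le_sum (fun i _ => hsmall i)
    have h2 : ∑ i ∈ I, EE p (fun x => |dM p F C.Y i x|)
        ≤ ∑ i ∈ Finset.range n, EE p (fun x => |dM p F C.Y i x|) :=
      Finset.sum_le_sum_of_subset_of_nonneg hIsub (fun i _ _ => hL1nn i)
    have h3 : a * ∑ i ∈ I, EE p (fun x => |dM p F C.Y i x|) ≤ a * (2 * En) :=
      mul_le_mul_of_nonneg_left (h2.trans hL1) ha.le
    nlinarith
  calc Real.log (4 * t * a ^ 2) * (Var - ∑ i ∈ Ic, EE p (fun x => dM p F C.Y i x ^ 2) - 2 * a * En)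
      ≤ Real.log (4 * t * a ^ 2) * ∑ i ∈ I,
          EE p (fun x => dM p F C.Y i x ^ 2 * (if a ≤ |dM p F C.Y i x| then 1 else 0)) :=
        mul_le_mul_of_nonneg_left hbig hΛ
    _ ≤ lsc p * ∑ i ∈ I, ∑ e ∈ (C.Y i)ᶜ, energy p e (dM p F C.Y i)
        + Real.log 2 * ∑ i ∈ I, EE p (fun x => dM p F C.Y i x ^ 2) := hsum1
    _ ≤ lsc p * C.A p F + Real.log 2 * Var := by
        have h1 := mul_le_mul_of_nonneg_left hA hlsc
        have h2 := mul_le_mul_of_nonneg_left hIle hlog2
        linarith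

end chain

end Crest.Agent.Lib.Sharp
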