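import Mathlib
import Crest.Prelude.Def_FinProb

/-!
# Biased cube: expectation, gluing, Fubini

Elementary facts on the product measure on `X → Bool`, stated through
`Crest.FinProb.bernoulliWeight`.
-/

set_option autoImplicit false

namespace Crest.Agent.Lib.Sharp

open Finset Crest.FinProb

variable {X : Type*} [Fintype X] [DecidableEq X]

/-- Expectation under independent coins of bias `p`. -/
noncomputable def EE (p : ℝ) (g : (X → Bool) → ℝ) : ℝ := ∑ x, bernoulliWeight p x * g x

lemma weight_nonneg {p : ℝ} (h0 : 0 ≤ p) (h1 : p ≤ 1) (x : X → Bool) :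
    0 ≤ bernoulliWeight p x :=
  Finset.prod_nonneg (fun i _ => by split_ifs <;> linarith)

lemma weight_pos {p : ℝ} (h0 : 0 < p) (h1 : p < 1) (x : X → Bool) :
    0 < bernoulliWeight p x :=
  Finset.prod_pos (fun i _ => by split_ifs <;> linarith)

lemma EE_add (p : ℝ) (g h : (X → Bool) → ℝ) :
    EE p (fun x => g x + h x) = EE p g + EE p h := by
  simp [EE, mul_add, Finset.sum_add_distrib]

lemma EE_sub (p : ℝ) (g h : (X → Bool) → ℝ) :
    EE p (fun x => g x - h x) = EE p g - EE p h := by
  simp [EE, mul_sub, Finset.sum_sub_distrib]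

lemma EE_const_mul (p c : ℝ) (g : (X → Bool) → ℝ) :
    EE p (fun x => c * g x) = c * EE p g := by
  simp only [EE, Finset.mul_sum]
  exact Finset.sum_congr rfl (fun x _ => by ring)

lemma EE_mul_const (p c : ℝ) (g : (X → Bool) → ℝ) :
    EE p (fun x => g x * c) = EE p g * c := by
  simp only [EE, Finset.sum_mul]
  exact Finset.sum_congr rfl (fun x _ => by ring)

lemma EE_neg (p : ℝ) (g : (X → Bool) → ℝ) :
    EE p (fun x => - g x) = - EE p g := by
  simp [EE, Finset.sum_neg_distrib]

lemma EE_sum {ι : Type*} (p : ℝ) (s : Finset ι) (g : ι → (X → Bool) → ℝ) :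
    EE p (fun x => ∑ i ∈ s, g i x) = ∑ i ∈ s, EE p (g i) := by
  simp only [EE, Finset.mul_sum]
  exact Finset.sum_comm

lemma EE_congr (p : ℝ) {g h : (X → Bool) → ℝ} (H : ∀ x, g x = h x) : EE p g = EE p h := by
  simp [EE, H]

lemma EE_mono {p : ℝ} (h0 : 0 ≤ p) (h1 : p ≤ 1) {g h : (X → Bool) → ℝ}
    (H : ∀ x, g x ≤ h x) : EE p g ≤ EE p h :=
  Finset.sum_le_sum (fun x _ => mul_le_mul_of_nonneg_left (H x) (weight_nonneg h0 h1 x))

lemma EE_nonneg {p : ℝ} (h0 : 0 ≤ p) (h1 : p ≤ 1) {g : (X → Bool) → ℝ}
    (H : ∀ x, 0 ≤ g x) : 0 ≤ EE p g :=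
  Finset.sum_nonneg (fun x _ => mul_nonneg (weight_nonneg h0 h1 x) (H x))

/-- Independence: the expectation of a product of functions of distinct coordinates. -/
lemma EE_prod (p : ℝ) (u : X → Bool → ℝ) :
    EE p (fun x => ∏ e, u e (x e)) = ∏ e, (p * u e true + (1 - p) * u e false) := by
  have h := Finset.prod_univ_sum (fun _ : X => (Finset.univ : Finset Bool))
    (fun e b => (if b then p else 1 - p) * u e b)
  simp only [Fintype.piFinset_univ] at h
  have h2 : ∀ e : X, ∑ b : Bool, (if b then p else 1 - p) * u e b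
      = p * u e true + (1 - p) * u e false := by
    intro e; simp [Fintype.sum_bool]
  simp only [h2] at h
  rw [h, EE]
  refine Finset.sum_congr rfl (fun x _ => ?_)
  rw [bernoulliWeight, Finset.prod_mul_distrib]

lemma EE_one (p : ℝ) : EE p (fun _ : X → Bool => (1 : ℝ)) = 1 := by
  have h := EE_prod (X := X) p (fun _ _ => 1)
  simp only [Finset.prod_const_one] at h
  rw [h]
  refine Finset.prod_eq_one (fun _ _ => by ring)

lemma EE_const (p c : ℝ) : EE p (fun _ : X → Bool => c) = c := by
  have := EE_const_mul p c (fun _ : X → Bool => 1)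
  simpa [EE_one] using this

/-- Marginal of one coordinate. -/
lemma EE_eval (p : ℝ) (e : X) (K : Bool → ℝ) :
    EE p (fun x : X → Bool => K (x e)) = p * K true + (1 - p) * K false := by
  have h := EE_prod (X := X) p (fun j b => if j = e then K b else 1)
  have h2 : ∀ x : X → Bool, ∏ j, (if j = e then K (x j) else 1) = K (x e) := by
    intro x
    rw [Finset.prod_eq_single e]
    · simp
    · intro b _ hb; simp [hb]
    · simp
  simp only [h2] at h
  rw [h, Finset.prod_eq_single e]
  · simp
  · intro b _ hb; simp [hb]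
  · simp

/-! ### Gluing -/

/-- `glue C x y` copies `x` on `C` and `y` off `C`. -/
def glue (C : Finset X) (x y : X → Bool) : X → Bool := fun e => if e ∈ C then x e else y e

@[simp] lemma glue_apply (C : Finset X) (x y : X → Bool) (e : X) :
    glue C x y e = if e ∈ C then x e else y e := rfl

lemma weight_glue (p : ℝ) (C : Finset X) (x y : X → Bool) :
    bernoulliWeight p (glue C x y) * bernoulliWeight p (glue C y x)
      = bernoulliWeight p x * bernoulliWeight p y := by
  unfold bernoulliWeight
  rw [← Finset.prod_mul_distrib, ← Finset.prod_mul_distrib]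
  refine Finset.prod_congr rfl (fun e _ => ?_)
  by_cases h : e ∈ C <;> simp [glue, h, mul_comm]

lemma EE_comm (p : ℝ) (H : (X → Bool) → (X → Bool) → ℝ) :
    EE p (fun x => EE p (fun y => H x y)) = EE p (fun y => EE p (fun x => H x y)) := by
  simp only [EE, Finset.mul_sum]
  rw [Finset.sum_comm]
  refine Finset.sum_congr rfl (fun y _ => Finset.sum_congr rfl (fun x _ => by ring))

/-- The involution behind Fubini: `(x, y) ↦ (glue C x y, glue C y x)`. -/
lemma EE_EE_glue_swap (p : ℝ) (C : Finset X) (H : (X → Bool) → (X → Bool) → ℝ) :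
    EE p (fun x => EE p (fun y => H (glue C x y) (glue C y x)))
      = EE p (fun x => EE p (fun y => H x y)) := by
  simp only [EE, Finset.mul_sum]
  rw [← Finset.sum_product', ← Finset.sum_product']
  have hinv : Function.Involutive
      (fun z : (X → Bool) × (X → Bool) => (glue C z.1 z.2, glue C z.2 z.1)) := by
    intro z
    ext e <;> by_cases h : e ∈ C <;> simp [glue, h]
  have := Equiv.sum_comp hinv.toPerm
    (fun z : (X → Bool) × (X → Bool) =>
      bernoulliWeight p z.1 * (bernoulliWeight p z.2 * H z.1 z.2))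
  simp only [Function.Involutive.coe_toPerm] at this
  rw [show (univ ×ˢ univ : Finset ((X → Bool) × (X → Bool))) = univ from rfl]
  rw [← this]
  refine Finset.sum_congr rfl (fun z _ => ?_)
  have hw := weight_glue p C z.1 z.2
  calc bernoulliWeight p z.1 * (bernoulliWeight p z.2 * H (glue C z.1 z.2) (glue C z.2 z.1))
      = (bernoulliWeight p z.1 * bernoulliWeight p z.2) * H (glue C z.1 z.2) (glue C z.2 z.1) := by
        ring
    _ = _ := by rw [← hw]; ring

/-- Fubini for gluing. -/
lemma EE_EE_glue (p : ℝ) (C : Finset X) (G : (X → Bool) → ℝ) :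
    EE p (fun x => EE p (fun y => G (glue C x y))) = EE p G := by
  have h := EE_EE_glue_swap p C (fun u _ => G u)
  rw [h]
  refine EE_congr p (fun x => EE_const p (G x))

/-- Integrating out one coordinate. -/
lemma EE_update (p : ℝ) (e : X) (g : (X → Bool) → ℝ) :
    EE p g = p * EE p (fun x => g (Function.update x e true))
      + (1 - p) * EE p (fun x => g (Function.update x e false)) := by
  rw [← EE_EE_glue p {e} g]
  rw [EE_comm]
  have h : ∀ y x : X → Bool, glue {e} x y = Function.update y e (x e) := by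
    intro y x
    funext j
    by_cases hj : j = e
    · subst hj; simp
    · simp [hj, Function.update_of_ne hj]
  simp only [h]
  have h2 : ∀ y : X → Bool, EE p (fun x : X → Bool => g (Function.update y e (x e)))
      = p * g (Function.update y e true) + (1 - p) * g (Function.update y e false) :=
    fun y => EE_eval p e (fun b => g (Function.update y e b))
  simp only [h2]
  rw [EE_add, EE_const_mul, EE_const_mul]

/-! ### Coordinate permutations -/

lemma weight_comp_perm (p : ℝ) (π : Equiv.Perm X) (x : X → Bool) :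
    bernoulliWeight p (x ∘ π) = bernoulliWeight p x :=
  Equiv.prod_comp π (fun e => if x e then p else 1 - p)

lemma EE_comp_perm (p : ℝ) (π : Equiv.Perm X) (g : (X → Bool) → ℝ) :
    EE p (fun x => g (x ∘ π)) = EE p g := by
  unfold EE
  have := Equiv.sum_comp (Equiv.arrowCongr π.symm (Equiv.refl Bool))
    (fun x : X → Bool => bernoulliWeight p x * g x)
  rw [← this]
  refine Finset.sum_congr rfl (fun x _ => ?_)
  have h : (Equiv.arrowCongr π.symm (Equiv.refl Bool)) x = x ∘ π := by
    funext e; simp [Equiv.arrowCongr]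
  rw [h, weight_comp_perm]

/-- Cauchy–Schwarz for `EE`. -/
lemma EE_mul_sq_le {p : ℝ} (h0 : 0 ≤ p) (h1 : p ≤ 1) (g h : (X → Bool) → ℝ) :
    (EE p (fun x => g x * h x)) ^ 2 ≤ EE p (fun x => g x ^ 2) * EE p (fun x => h x ^ 2) := by
  unfold EE
  have := Finset.sum_mul_sq_le_sq_mul_sq (Finset.univ : Finset (X → Bool))
    (fun x => √(bernoulliWeight p x) * g x) (fun x => √(bernoulliWeight p x) * h x)
  have hw : ∀ x : X → Bool, √(bernoulliWeight p x) * √(bernoulliWeight p x)
      = bernoulliWeight p x := fun x => Real.mul_self_sqrt (weight_nonneg h0 h1 x)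
  have e1 : ∀ x : X → Bool, (√(bernoulliWeight p x) * g x) * (√(bernoulliWeight p x) * h x)
      = bernoulliWeight p x * (g x * h x) := fun x => by
    rw [← hw x]; ring_nf; simp
  have e2 : ∀ (g : (X → Bool) → ℝ) (x : X → Bool), (√(bernoulliWeight p x) * g x) ^ 2
      = bernoulliWeight p x * (g x ^ 2) := fun g x => by
    rw [mul_pow, Real.sq_sqrt (weight_nonneg h0 h1 x)]
  simp only [e1, e2] at this
  exact this

end Crest.Agent.Lib.Sharp
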