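import Crest.Agent.Lib.Sharp.Avg

/-!
# The sharp threshold inequality for symmetric Boolean functions of hypergraphs
-/

set_option autoImplicit false

namespace Crest.Agent.Lib.Sharp

open Finset Crest.FinProb Crest.CombinatoricsR.HypergraphCube

section bridge

variable {X : Type*} [Fintype X] [DecidableEq X]

open scoped Classical in
lemma bernoulliProb_eq_EE (p : ℝ) (E : Set (X → Bool)) :
    bernoulliProb p E = EE p (fun x => if x ∈ E then 1 else 0) := by
  unfold bernoulliProb EE
  rw [Finset.sum_filter]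
  refine Finset.sum_congr rfl (fun x _ => ?_)
  by_cases hx : x ∈ E <;> simp [hx]

lemma bF_sq (f : (X → Bool) → Bool) (x : X → Bool) : bF f x ^ 2 = bF f x := by
  rcases bF_cases f x with h | h <;> rw [h] <;> norm_num

lemma DD_bF_sq (f : (X → Bool) → Bool) (e : X) (x : X → Bool) :
    DD e (bF f) x ^ 2
      = if f (Function.update x e true) ≠ f (Function.update x e false) then 1 else 0 := by
  simp only [DD, bF]
  cases h1 : f (Function.update x e true) <;> cases h2 : f (Function.update x e false) <;> simp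

end bridge

variable {n r : ℕ}

lemma probTrue_eq (p : ℝ) (f : (HyperedgeSlot n r → Bool) → Bool) :
    probTrue p f = EE p (bF f) := by
  classical
  rw [probTrue, bernoulliProb_eq_EE]
  refine EE_congr p (fun x => ?_)
  simp [bF]

lemma energy_bF (p : ℝ) (f : (HyperedgeSlot n r → Bool) → Bool) (e : HyperedgeSlot n r) :
    energy p e (bF f) = p * (1 - p) * pivotalInfluence p f e := by
  classical
  rw [energy, pivotalInfluence, bernoulliProb_eq_EE]
  congr 1
  refine EE_congr p (fun x => ?_)
  rw [DD_bF_sq]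
  simp

lemma sum_energy_bF (p : ℝ) (f : (HyperedgeSlot n r → Bool) → Bool) :
    ∑ e, energy p e (bF f) = p * (1 - p) * totalInfluence p f := by
  simp only [energy_bF, totalInfluence, Finset.mul_sum]

lemma var_bF (p : ℝ) (f : (HyperedgeSlot n r → Bool) → Bool) :
    EE p (fun x => bF f x ^ 2) - (EE p (bF f)) ^ 2 = probTrue p f * (1 - probTrue p f) := by
  simp only [bF_sq, probTrue_eq]
  ring

lemma totalInfluence_nonneg {p : ℝ} (hp : 0 < p) (hp1 : p < 1)
    (f : (HyperedgeSlot n r → Bool) → Bool) : 0 ≤ totalInfluence p f := by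
  have h1 : ∀ e, 0 ≤ pivotalInfluence p f e := by
    intro e
    classical
    rw [pivotalInfluence, bernoulliProb_eq_EE]
    exact EE_nonneg hp.le hp1.le (fun x => by split_ifs <;> norm_num)
  exact Finset.sum_nonneg (fun e _ => h1 e)

/-- Poincaré in the form `4 Var ≤ I`. -/
lemma four_var_le {p : ℝ} (hp : 0 < p) (hp1 : p < 1)
    (f : (HyperedgeSlot n r → Bool) → Bool) :
    4 * (probTrue p f * (1 - probTrue p f)) ≤ totalInfluence p f := by
  have h1 := variance_le_energy hp hp1 (bF f)
  rw [var_bF, sum_energy_bF] at h1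
  have h2 := totalInfluence_nonneg hp hp1 f
  have h3 : p * (1 - p) ≤ 1 / 4 := by nlinarith [sq_nonneg (p - 1 / 2)]
  have h4 : p * (1 - p) * totalInfluence p f ≤ 1 / 4 * totalInfluence p f :=
    mul_le_mul_of_nonneg_right h3 h2
  linarith

/-- The main estimate when the normalized energy is not too large. -/
theorem sharp_bound {p : ℝ} (hp : 0 < p) (hp1 : p < 1) (hr : 2 ≤ r) (hn : 0 < n)
    {f : (HyperedgeSlot n r → Bool) → Bool} (hf : IsSymmetric f)
    (hVar : 0 < probTrue p f * (1 - probTrue p f))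
    (hL : 10 * Real.log (256 * r) ≤ Real.log n)
    (hη : Real.log (p * (1 - p) * totalInfluence p f / (probTrue p f * (1 - probTrue p f)))
      ≤ Real.log n / 10) :
    (3 / 10 * Real.log n) ^ expo r * (probTrue p f * (1 - probTrue p f))
      ≤ 256 * (r : ℝ) ^ 2 * totalInfluence p f := by
  have hr1 : 1 ≤ r := by omega
  have hrR : (2 : ℝ) ≤ r := by exact_mod_cast hr
  have hnR : (0 : ℝ) < n := by exact_mod_cast hn
  set Var := probTrue p f * (1 - probTrue p f) with hVardef
  set I := totalInfluence p f with hI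
  set L := Real.log n with hLdef
  have hVar' : EE p (fun x => bF f x ^ 2) - (EE p (bF f)) ^ 2 = Var := var_bF p f
  have hEn : ∑ e, energy p e (bF f) = p * (1 - p) * I := sum_energy_bF p f
  set En := p * (1 - p) * I with hEndef
  have hI0 : 0 ≤ I := totalInfluence_nonneg hp hp1 f
  have hpq0 : 0 < p * (1 - p) := mul_pos hp (by linarith)
  have hPoin : Var ≤ En := by
    have := variance_le_energy hp hp1 (bF f)
    rwa [hVar', hEn] at this
  have hEnpos : 0 < En := lt_of_lt_of_le hVar hPoin
  set η := En / Var with hηdef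
  have hηpos : 0 < η := div_pos hEnpos hVar
  have hEnη : En = η * Var := by
    rw [hηdef]; field_simp
  -- logs
  have h256 : 0 < Real.log (256 * r) := by
    apply Real.log_pos
    nlinarith
  have hL0 : 0 < L := by linarith
  set t := (n : ℝ) / (4 * r * η) with ht
  set a := 1 / (8 * η) with ha
  have htpos : 0 < t := by positivity
  have hapos : 0 < a := by positivity
  have h4ta : 4 * t * a ^ 2 = (n : ℝ) / (64 * r * η ^ 3) := by
    rw [ht, ha]
    field_simp
    ring
  have hlog4 : Real.log (4 * t * a ^ 2) = L - Real.log (64 * r) - 3 * Real.log η := by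
    rw [h4ta, Real.log_div hnR.ne' (by positivity), Real.log_mul (by positivity) (by positivity),
      Real.log_pow]
    push_cast
    ring
  have h64 : Real.log (256 * r) = 2 * Real.log 2 + Real.log (64 * r) := by
    have : (256 : ℝ) * r = 2 ^ 2 * (64 * r) := by ring
    rw [this, Real.log_mul (by positivity) (by positivity), Real.log_pow]
    push_cast
    ring
  have hlog2 : 0 < Real.log 2 := Real.log_pos (by norm_num)
  have hlog4' : 7 / 10 * L - Real.log (64 * r) ≤ Real.log (4 * t * a ^ 2) := by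
    rw [hlog4]
    linarith
  have hlog4pos : 0 ≤ Real.log (4 * t * a ^ 2) := by linarith
  have hb : 1 ≤ 4 * t * a ^ 2 := by
    rw [← Real.log_nonneg_iff (by positivity)]
    exact hlog4pos
  have hmain := hyper_main hp hp1 hr1 hn hf htpos hapos hb
  rw [hVar', hEn] at hmain
  have h1 : t * ((r : ℝ) / n * En) = Var / 4 := by
    rw [ht, hEnη]
    have hne : η ≠ 0 := hηpos.ne'
    field_simp
  have h2 : 2 * a * En = Var / 4 := by
    rw [ha, hEnη]
    have hne : η ≠ 0 := hηpos.ne'
    field_simp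
    ring
  rw [h1, h2] at hmain
  set A := (hChain n r hr1).A p (bF f) with hA
  have hlsc1 : 1 ≤ lsc p := one_le_lsc p hp hp1
  have hlscpos : 0 < lsc p := by linarith
  -- the lower bound for A
  have hAlow : 3 / 10 * L * Var ≤ lsc p * A := by
    have e1 : Real.log (4 * t * a ^ 2) * (Var - Var / 4 - Var / 4)
        = Real.log (4 * t * a ^ 2) / 2 * Var := by ring
    rw [e1] at hmain
    have h3 : (7 / 10 * L - Real.log (64 * r)) / 2 * Var
        ≤ Real.log (4 * t * a ^ 2) / 2 * Var :=
      mul_le_mul_of_nonneg_right (by linarith) hVar.le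
    have h4 : 3 / 10 * L ≤ (7 / 10 * L - Real.log (64 * r)) / 2 - Real.log 2 := by
      rw [h64] at hL
      linarith
    have h5 := mul_le_mul_of_nonneg_right h4 hVar.le
    nlinarith
  have hAVar : 3 / 10 * L / lsc p ≤ A / Var := by
    rw [div_le_div_iff₀ hlscpos hVar]
    linarith
  have hJ := jensen_A hp hp1 hr hf (by rw [hVar']; exact hVar)
  rw [hVar', hEn] at hJ
  have hs0 : 0 ≤ expo r := by linarith [one_le_expo hr]
  have hX0 : 0 ≤ 3 / 10 * L := by positivity
  have h6 : (3 / 10 * L / lsc p) ^ expo r ≤ (r : ℝ) ^ 2 * η :=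
    (Real.rpow_le_rpow (by positivity) hAVar hs0).trans hJ
  rw [Real.div_rpow hX0 hlscpos.le] at h6
  have hlscs : lsc p ^ expo r ≤ lsc p ^ 2 := by
    have := Real.rpow_le_rpow_of_exponent_le hlsc1 (expo_le_two hr)
    simpa using this
  have hlscs0 : 0 < lsc p ^ expo r := by positivity
  have h7 : (3 / 10 * L) ^ expo r ≤ (r : ℝ) ^ 2 * η * lsc p ^ 2 := by
    rw [div_le_iff₀ hlscs0] at h6
    refine h6.trans ?_
    exact mul_le_mul_of_nonneg_left hlscs (by positivity)
  have h8 := lsc_sq_mul_le p hp hp1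
  calc (3 / 10 * L) ^ expo r * Var ≤ (r : ℝ) ^ 2 * η * lsc p ^ 2 * Var :=
        mul_le_mul_of_nonneg_right h7 hVar.le
    _ = (r : ℝ) ^ 2 * (lsc p ^ 2 * (p * (1 - p))) * I := by
        have : (r : ℝ) ^ 2 * η * lsc p ^ 2 * Var = (r : ℝ) ^ 2 * lsc p ^ 2 * (η * Var) := by ring
        rw [this, ← hEnη, hEndef]
        ring
    _ ≤ (r : ℝ) ^ 2 * 256 * I := by
        apply mul_le_mul_of_nonneg_right _ hI0
        exact mul_le_mul_of_nonneg_left h8 (by positivity)
    _ = 256 * (r : ℝ) ^ 2 * I := by ring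

/-- The dichotomy. -/
theorem sharp_dichotomy {p : ℝ} (hp : 0 < p) (hp1 : p < 1) (hr : 2 ≤ r) (hn : 0 < n)
    {f : (HyperedgeSlot n r → Bool) → Bool} (hf : IsSymmetric f)
    (hL : 10 * Real.log (256 * r) ≤ Real.log n) :
    (3 / 10 * Real.log n) ^ expo r * (probTrue p f * (1 - probTrue p f))
        ≤ 256 * (r : ℝ) ^ 2 * totalInfluence p f
      ∨ 4 * Real.exp (Real.log n / 10) * (probTrue p f * (1 - probTrue p f))
        ≤ totalInfluence p f := by
  have hI0 := totalInfluence_nonneg hp hp1 f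
  have hμ : 0 ≤ probTrue p f * (1 - probTrue p f) := by
    have h0 : 0 ≤ EE p (fun x => bF f x ^ 2) - (EE p (bF f)) ^ 2 := by
      rw [var_eq_sum hp hp1]
      exact Finset.sum_nonneg (fun S _ => by split_ifs <;> positivity)
    rwa [var_bF] at h0
  rcases hμ.eq_or_lt with h0 | hVar
  · left
    rw [← h0]
    simp only [mul_zero]
    positivity
  by_cases hη : Real.log (p * (1 - p) * totalInfluence p f
      / (probTrue p f * (1 - probTrue p f))) ≤ Real.log n / 10
  · left
    exact sharp_bound hp hp1 hr hn hf hVar hL hη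
  · right
    push_neg at hη
    set Var := probTrue p f * (1 - probTrue p f) with hV
    set I := totalInfluence p f with hI
    have hpq0 : 0 < p * (1 - p) := mul_pos hp (by linarith)
    have hPoin := four_var_le hp hp1 f
    have hIpos : 0 < I := by
      rw [← hV] at hPoin
      linarith
    have hpos : 0 < p * (1 - p) * I / Var := by positivity
    have h1 : Real.exp (Real.log n / 10) < p * (1 - p) * I / Var := by
      rw [← Real.exp_log hpos]
      exact Real.exp_lt_exp.mpr hη
    rw [lt_div_iff₀ hVar] at h1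
    have h3 : p * (1 - p) ≤ 1 / 4 := by nlinarith [sq_nonneg (p - 1 / 2)]
    nlinarith

/-- `L^2 ≤ 400 exp (L / 10)`. -/
lemma one_add_sq_le_exp (L : ℝ) (hL : 0 ≤ L) : (1 + L) ^ 2 ≤ 400 * Real.exp (L / 10) := by
  have h1 : L / 20 + 1 ≤ Real.exp (L / 20) := Real.add_one_le_exp _
  have h2 : (L / 20 + 1) ^ 2 ≤ Real.exp (L / 20) ^ 2 :=
    pow_le_pow_left₀ (by positivity) h1 2
  have h3 : Real.exp (L / 20) ^ 2 = Real.exp (L / 10) := by
    rw [← Real.exp_nat_mul]
    congr 1
    push_cast
    ring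
  rw [h3] at h2
  nlinarith

lemma rpow_le_one_add_sq (hr : 2 ≤ r) (L : ℝ) (hL : 0 ≤ L) : L ^ expo r ≤ (1 + L) ^ 2 := by
  have hs := one_le_expo hr
  have hs2 := expo_le_two hr
  have h1 : L ^ expo r ≤ (1 + L) ^ expo r :=
    Real.rpow_le_rpow hL (by linarith) (by linarith)
  have h2 : (1 + L) ^ expo r ≤ (1 + L) ^ (2 : ℝ) :=
    Real.rpow_le_rpow_of_exponent_le (by linarith) hs2
  calc L ^ expo r ≤ (1 + L) ^ expo r := h1
    _ ≤ (1 + L) ^ (2 : ℝ) := h2
    _ = (1 + L) ^ 2 := Real.rpow_two _

/-- The inequality for all `n`, with an unspecified constant. -/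
theorem sharp_all (r : ℕ) (hr : 2 ≤ r) :
    ∃ C : ℝ, 0 ≤ C ∧ ∀ n : ℕ, r ≤ n → ∀ p : ℝ, 0 < p → p < 1 →
      ∀ f : (HyperedgeSlot n r → Bool) → Bool, IsSymmetric f →
        Real.log n ^ expo r * (probTrue p f * (1 - probTrue p f))
          ≤ C * totalInfluence p f := by
  have hrR : (2 : ℝ) ≤ r := by exact_mod_cast hr
  set L0 := 10 * Real.log (256 * r) with hL0
  have hL00 : 0 ≤ L0 := by
    have : 0 ≤ Real.log (256 * r) := Real.log_nonneg (by nlinarith)
    positivity
  refine ⟨(1 + L0) ^ 2 + 100 / 9 * (256 * (r : ℝ) ^ 2) + 100, by positivity, ?_⟩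
  intro n hn p hp hp1 f hf
  have hn2 : 2 ≤ n := by omega
  have hnR : (2 : ℝ) ≤ n := by exact_mod_cast hn2
  have hL : 0 < Real.log n := Real.log_pos (by linarith)
  set L := Real.log n with hLdef
  set Var := probTrue p f * (1 - probTrue p f) with hV
  set I := totalInfluence p f with hI
  have hI0 : 0 ≤ I := totalInfluence_nonneg hp hp1 f
  have hμ : 0 ≤ Var := by
    have h0 : 0 ≤ EE p (fun x => bF f x ^ 2) - (EE p (bF f)) ^ 2 := by
      rw [var_eq_sum hp hp1]
      exact Finset.sum_nonneg (fun S _ => by split_ifs <;> positivity)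
    rwa [var_bF] at h0
  have hPoin : 4 * Var ≤ I := four_var_le hp hp1 f
  have hbig : ∀ c d e : ℝ, 0 ≤ c → 0 ≤ d → 0 ≤ e →
      (c + d + e) * I = c * I + d * I + e * I := by
    intro c d e _ _ _; ring
  have hs := one_le_expo hr
  have hs2 := expo_le_two hr
  have hLs0 : 0 ≤ L ^ expo r := by positivity
  by_cases hcase : L0 ≤ L
  · rcases sharp_dichotomy hp hp1 hr (by omega) hf hcase with h | h
    · -- the main case
      rw [Real.mul_rpow (by norm_num) hL.le] at h
      have h1 : (9 / 100 : ℝ) ≤ (3 / 10 : ℝ) ^ expo r := by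
        have := Real.rpow_le_rpow_of_exponent_ge (by norm_num : (0 : ℝ) < 3 / 10)
          (by norm_num : (3 / 10 : ℝ) ≤ 1) hs2
        have e : ((3 / 10 : ℝ)) ^ (2 : ℝ) = 9 / 100 := by
          rw [Real.rpow_two]; norm_num
        rwa [e] at this
      have h2 : 9 / 100 * (L ^ expo r * Var) ≤ 256 * (r : ℝ) ^ 2 * I := by
        have h3 : 0 ≤ L ^ expo r * Var := by positivity
        nlinarith
      have h4 : L ^ expo r * Var ≤ 100 / 9 * (256 * (r : ℝ) ^ 2) * I := by
        nlinarith
      have h5 : 0 ≤ (1 + L0) ^ 2 * I := by positivity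
      have h6 : 0 ≤ 100 * I := by positivity
      rw [hbig _ _ _ (by positivity) (by positivity) (by norm_num)]
      linarith
    · -- the energetic case
      have h1 := rpow_le_one_add_sq hr L hL.le
      have h2 := one_add_sq_le_exp L hL.le
      have h3 : L ^ expo r * Var ≤ 400 * Real.exp (L / 10) * Var :=
        mul_le_mul_of_nonneg_right (h1.trans h2) hμ
      have h5 : 0 ≤ (1 + L0) ^ 2 * I := by positivity
      have h6 : 0 ≤ 100 / 9 * (256 * (r : ℝ) ^ 2) * I := by positivity
      rw [hbig _ _ _ (by positivity) (by positivity) (by norm_num)]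
      nlinarith
  · push_neg at hcase
    have h1 := rpow_le_one_add_sq hr L hL.le
    have h2 : (1 + L) ^ 2 ≤ (1 + L0) ^ 2 :=
      pow_le_pow_left₀ (by positivity) (by linarith) 2
    have h3 : L ^ expo r * Var ≤ (1 + L0) ^ 2 * Var :=
      mul_le_mul_of_nonneg_right (h1.trans h2) hμ
    have h4 : (1 + L0) ^ 2 * Var ≤ (1 + L0) ^ 2 * I :=
      mul_le_mul_of_nonneg_left (by linarith) (by positivity)
    have h5 : 0 ≤ 100 / 9 * (256 * (r : ℝ) ^ 2) * I := by positivity
    have h6 : 0 ≤ 100 * I := by positivity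
    rw [hbig _ _ _ (by positivity) (by positivity) (by norm_num)]
    linarith

/-- The explicit form for graphs (`r = 2`). -/
theorem sharp_graph (n : ℕ) (hn : 2 ≤ n) (p : ℝ) (hp : 0 < p) (hp1 : p < 1)
    (f : (HyperedgeSlot n 2 → Bool) → Bool) (hf : IsSymmetric f) :
    Real.log n ^ 2 * (probTrue p f * (1 - probTrue p f)) ≤ 2 ^ 17 * totalInfluence p f := by
  have hnR : (2 : ℝ) ≤ n := by exact_mod_cast hn
  have hL : 0 < Real.log n := Real.log_pos (by linarith)
  set L := Real.log n with hLdef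
  set Var := probTrue p f * (1 - probTrue p f) with hV
  set I := totalInfluence p f with hI
  have hI0 : 0 ≤ I := totalInfluence_nonneg hp hp1 f
  have hμ : 0 ≤ Var := by
    have h0 : 0 ≤ EE p (fun x => bF f x ^ 2) - (EE p (bF f)) ^ 2 := by
      rw [var_eq_sum hp hp1]
      exact Finset.sum_nonneg (fun S _ => by split_ifs <;> positivity)
    rwa [var_bF] at h0
  have hPoin : 4 * Var ≤ I := four_var_le hp hp1 f
  have hexpo : expo 2 = 2 := by
    norm_num [expo]
  have h512 : Real.log 512 ≤ 7 := by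
    have h1 : (512 : ℝ) = 2 ^ 9 := by norm_num
    rw [h1, Real.log_pow]
    have := Real.log_two_lt_d9
    push_cast
    linarith
  have hcast : (256 : ℝ) * ((2 : ℕ) : ℝ) = 512 := by norm_num
  by_cases hcase : 10 * Real.log (256 * ((2 : ℕ) : ℝ)) ≤ L
  · rcases sharp_dichotomy hp hp1 (le_refl 2) (by omega) hf hcase with h | h
    · rw [hexpo, Real.rpow_two] at h
      have hr : ((2 : ℕ) : ℝ) = 2 := by norm_num
      rw [hr] at h
      have h2 : (3 / 10 * L) ^ 2 * Var = 9 / 100 * (L ^ 2 * Var) := by ring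
      rw [h2] at h
      nlinarith
    · have h1 := one_add_sq_le_exp L hL.le
      have h2 : L ^ 2 ≤ 400 * Real.exp (L / 10) := by nlinarith
      have h3 : L ^ 2 * Var ≤ 400 * Real.exp (L / 10) * Var :=
        mul_le_mul_of_nonneg_right h2 hμ
      nlinarith
  · push_neg at hcase
    rw [hcast] at hcase
    have h1 : L ≤ 70 := by linarith
    have h2 : L ^ 2 ≤ 4900 := by nlinarith
    have h3 : L ^ 2 * Var ≤ 4900 * Var := mul_le_mul_of_nonneg_right h2 hμ
    nlinarith

end Crest.Agent.Lib.Sharp
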