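import Crest.Agent.Lib.Sharp.Cube

/-!
# The `p`-biased Fourier basis on the cube and conditional expectations
-/

set_option autoImplicit false

namespace Crest.Agent.Lib.Sharp

open Finset Crest.FinProb

/-- `√(p q)`. -/
noncomputable def ss (p : ℝ) : ℝ := √(p * (1 - p))

/-- One-coordinate orthonormal mean-zero function. -/
noncomputable def phi (p : ℝ) (b : Bool) : ℝ := if b then ss p / p else - (ss p / (1 - p))

section phi
variable {p : ℝ} (hp : 0 < p) (hp1 : p < 1)
include hp hp1

lemma ss_sq : ss p ^ 2 = p * (1 - p) :=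
  Real.sq_sqrt (mul_nonneg hp.le (by linarith))

lemma phi_mean : p * phi p true + (1 - p) * phi p false = 0 := by
  have h1 : (1 - p) ≠ 0 := by linarith
  have h0 : p ≠ 0 := hp.ne'
  simp only [phi, if_true, Bool.false_eq_true, if_false]
  field_simp
  ring

lemma phi_sq_mean : p * phi p true ^ 2 + (1 - p) * phi p false ^ 2 = 1 := by
  have h1 : (1 - p) ≠ 0 := by linarith
  have h0 : p ≠ 0 := hp.ne'
  simp only [phi, if_true, Bool.false_eq_true, if_false, neg_sq, div_pow, ss_sq hp hp1]
  field_simp
  ring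

lemma phi_cross : 1 + phi p true * phi p false = 0 := by
  have h1 : (1 - p) ≠ 0 := by linarith
  have h0 : p ≠ 0 := hp.ne'
  simp only [phi, if_true, Bool.false_eq_true, if_false]
  have := ss_sq hp hp1
  field_simp
  nlinarith [this]

lemma phi_one_add_sq (b : Bool) :
    1 + phi p b * phi p b = (if b then p else 1 - p)⁻¹ := by
  have h1 : (1 - p) ≠ 0 := by linarith
  have h0 : p ≠ 0 := hp.ne'
  have := ss_sq hp hp1
  cases b
  · simp only [phi, Bool.false_eq_true, if_false]
    field_simp
    nlinarith [this]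
  · simp only [phi, if_true]
    field_simp
    nlinarith [this]

end phi

variable {X : Type*} [Fintype X] [DecidableEq X]

/-- The Walsh function of `S` for the bias `p`. -/
noncomputable def chi (p : ℝ) (S : Finset X) (x : X → Bool) : ℝ := ∏ e ∈ S, phi p (x e)

/-- The Fourier coefficient. -/
noncomputable def hat (p : ℝ) (g : (X → Bool) → ℝ) (S : Finset X) : ℝ :=
  EE p (fun x => g x * chi p S x)

lemma chi_eq_prod (p : ℝ) (S : Finset X) (x : X → Bool) :
    chi p S x = ∏ e, (if e ∈ S then phi p (x e) else 1) := by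
  rw [chi, Finset.prod_ite_mem, Finset.univ_inter]

@[simp] lemma chi_empty (p : ℝ) (x : X → Bool) : chi p (∅ : Finset X) x = 1 := by
  simp [chi]

lemma EE_chi_mul_chi {p : ℝ} (hp : 0 < p) (hp1 : p < 1) (S T : Finset X) :
    EE p (fun x => chi p S x * chi p T x) = if S = T then 1 else 0 := by
  have h := EE_prod (X := X) p
    (fun e b => (if e ∈ S then phi p b else 1) * (if e ∈ T then phi p b else 1))
  have h2 : ∀ x : X → Bool, chi p S x * chi p T x
      = ∏ e, ((if e ∈ S then phi p (x e) else 1) * (if e ∈ T then phi p (x e) else 1)) := by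
    intro x
    rw [Finset.prod_mul_distrib, ← chi_eq_prod, ← chi_eq_prod]
  simp only [h2]
  rw [h]
  split_ifs with hST
  · subst hST
    refine Finset.prod_eq_one (fun e _ => ?_)
    by_cases he : e ∈ S
    · simp only [he, if_true]
      have := phi_sq_mean hp hp1
      nlinarith [this]
    · simp only [he, if_false]; ring
  · have : ∃ e, ¬ (e ∈ S ↔ e ∈ T) := by
      by_contra hc
      push_neg at hc
      exact hST (Finset.ext hc)
    obtain ⟨e, he⟩ := this
    refine Finset.prod_eq_zero (Finset.mem_univ e) ?_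
    by_cases h1 : e ∈ S <;> by_cases h2 : e ∈ T
    · exact absurd (iff_of_true h1 h2) he
    · simp only [h1, h2, if_true, if_false, mul_one]
      exact phi_mean hp hp1
    · simp only [h1, h2, if_true, if_false, one_mul]
      exact phi_mean hp hp1
    · exact absurd (iff_of_false h1 h2) he

lemma EE_chi {p : ℝ} (hp : 0 < p) (hp1 : p < 1) (S : Finset X) :
    EE p (chi p S) = if S = ∅ then 1 else 0 := by
  have := EE_chi_mul_chi hp hp1 S ∅
  simpa using this

/-- The reproducing kernel. -/
lemma sum_chi_mul_chi {p : ℝ} (hp : 0 < p) (hp1 : p < 1) (x y : X → Bool) :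
    ∑ S : Finset X, chi p S x * chi p S y
      = if x = y then (bernoulliWeight p x)⁻¹ else 0 := by
  have h := Finset.prod_one_add (f := fun e => phi p (x e) * phi p (y e))
    (Finset.univ : Finset X)
  rw [Finset.powerset_univ] at h
  have h2 : ∀ S : Finset X, chi p S x * chi p S y
      = ∏ e ∈ S, (phi p (x e) * phi p (y e)) := by
    intro S
    rw [Finset.prod_mul_distrib]; rfl
  simp only [h2]
  rw [← h]
  split_ifs with hxy
  · subst hxy
    rw [bernoulliWeight, ← Finset.prod_inv_distrib]
    refine Finset.prod_congr rfl (fun e _ => ?_)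
    exact phi_one_add_sq hp hp1 (x e)
  · have : ∃ e, x e ≠ y e := by
      by_contra hc
      push_neg at hc
      exact hxy (funext hc)
    obtain ⟨e, he⟩ := this
    refine Finset.prod_eq_zero (Finset.mem_univ e) ?_
    have hc := phi_cross hp hp1
    have hc' : 1 + phi p (x e) * phi p (y e) = 0 := by
      cases hx : x e <;> cases hy : y e
      · simp [hx, hy] at he
      · linarith [hc, mul_comm (phi p true) (phi p false)]
      · linarith [hc]
      · simp [hx, hy] at he
    exact hc'

/-- The Fourier expansion. -/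
lemma sum_hat_mul_chi {p : ℝ} (hp : 0 < p) (hp1 : p < 1) (g : (X → Bool) → ℝ) (y : X → Bool) :
    ∑ S : Finset X, hat p g S * chi p S y = g y := by
  simp only [hat, EE, Finset.sum_mul]
  rw [Finset.sum_comm]
  have h1 : ∀ x : X → Bool, ∑ S : Finset X, bernoulliWeight p x * (g x * chi p S x) * chi p S y
      = bernoulliWeight p x * g x * ∑ S : Finset X, chi p S x * chi p S y := by
    intro x
    rw [Finset.mul_sum]
    exact Finset.sum_congr rfl (fun S _ => by ring)
  simp only [h1, sum_chi_mul_chi hp hp1]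
  rw [Finset.sum_eq_single y]
  · rw [if_pos rfl]
    have := (weight_pos hp hp1 y).ne'
    field_simp
  · intro b _ hb
    rw [if_neg hb, mul_zero]
  · simp

lemma parseval {p : ℝ} (hp : 0 < p) (hp1 : p < 1) (g h : (X → Bool) → ℝ) :
    EE p (fun x => g x * h x) = ∑ S : Finset X, hat p g S * hat p h S := by
  have h1 : ∀ x : X → Bool, g x * h x = ∑ S : Finset X, hat p g S * (h x * chi p S x) := by
    intro x
    conv_lhs => rw [← sum_hat_mul_chi hp hp1 g x]
    rw [Finset.sum_mul]
    exact Finset.sum_congr rfl (fun S _ => by ring)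
  simp only [h1]
  rw [EE_sum]
  refine Finset.sum_congr rfl (fun S _ => ?_)
  rw [EE_const_mul]
  rfl

lemma EE_sq_eq {p : ℝ} (hp : 0 < p) (hp1 : p < 1) (g : (X → Bool) → ℝ) :
    EE p (fun x => g x ^ 2) = ∑ S : Finset X, hat p g S ^ 2 := by
  have := parseval hp hp1 g g
  simp only [← sq] at this
  exact this

/-- Coefficients of an explicit expansion. -/
lemma hat_of_sum {p : ℝ} (hp : 0 < p) (hp1 : p < 1) {g : (X → Bool) → ℝ} {c : Finset X → ℝ}
    (H : ∀ x, g x = ∑ S : Finset X, c S * chi p S x) (T : Finset X) :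
    hat p g T = c T := by
  have h1 : ∀ x : X → Bool, g x * chi p T x = ∑ S : Finset X, c S * (chi p S x * chi p T x) := by
    intro x
    rw [H x, Finset.sum_mul]
    exact Finset.sum_congr rfl (fun S _ => by ring)
  rw [hat]
  simp only [h1]
  rw [EE_sum]
  simp only [EE_const_mul, EE_chi_mul_chi hp hp1]
  rw [Finset.sum_eq_single T]
  · simp
  · intro b _ hb
    simp [hb]
  · simp

@[simp] lemma hat_empty (p : ℝ) (g : (X → Bool) → ℝ) : hat p g ∅ = EE p g := by
  simp [hat]

lemma hat_sub (p : ℝ) (g h : (X → Bool) → ℝ) (S : Finset X) :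
    hat p (fun x => g x - h x) S = hat p g S - hat p h S := by
  simp only [hat, sub_mul, EE_sub]

/-! ### Conditional expectation -/

/-- Conditional expectation given the coordinates in `C`. -/
noncomputable def cE (p : ℝ) (C : Finset X) (g : (X → Bool) → ℝ) (x : X → Bool) : ℝ :=
  EE p (fun y => g (glue C x y))

lemma EE_cE (p : ℝ) (C : Finset X) (g : (X → Bool) → ℝ) : EE p (cE p C g) = EE p g :=
  EE_EE_glue p C g

lemma cE_chi {p : ℝ} (hp : 0 < p) (hp1 : p < 1) (C S : Finset X) (x : X → Bool) :
    cE p C (chi p S) x = if S ⊆ C then chi p S x else 0 := by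
  have h : ∀ y : X → Bool, chi p S (glue C x y)
      = chi p (S.filter (· ∈ C)) x * chi p (S.filter (· ∉ C)) y := by
    intro y
    simp only [chi]
    rw [← Finset.prod_filter_mul_prod_filter_not S (· ∈ C)]
    congr 1
    · refine Finset.prod_congr rfl (fun e he => ?_)
      rw [glue_apply, if_pos (Finset.mem_filter.mp he).2]
    · refine Finset.prod_congr rfl (fun e he => ?_)
      rw [glue_apply, if_neg (Finset.mem_filter.mp he).2]
  rw [cE]
  simp only [h]
  rw [EE_const_mul, EE_chi hp hp1]
  by_cases hS : S ⊆ C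
  · have h1 : S.filter (· ∉ C) = ∅ := by
      rw [Finset.filter_eq_empty_iff]
      intro e he hc
      exact hc (hS he)
    have h2 : S.filter (· ∈ C) = S := Finset.filter_true_of_mem (fun e he => hS he)
    rw [if_pos h1, if_pos hS, mul_one, h2]
  · have h1 : S.filter (· ∉ C) ≠ ∅ := by
      intro h0
      rw [Finset.filter_eq_empty_iff] at h0
      apply hS
      intro e he
      have := h0 he
      simpa using this
    rw [if_neg h1, if_neg hS, mul_zero]

lemma cE_eq_sum {p : ℝ} (hp : 0 < p) (hp1 : p < 1) (C : Finset X) (g : (X → Bool) → ℝ)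
    (x : X → Bool) :
    cE p C g x = ∑ S : Finset X, (if S ⊆ C then hat p g S else 0) * chi p S x := by
  have h : ∀ y : X → Bool, g (glue C x y)
      = ∑ S : Finset X, hat p g S * chi p S (glue C x y) :=
    fun y => (sum_hat_mul_chi hp hp1 g _).symm
  rw [cE]
  simp only [h]
  rw [EE_sum]
  refine Finset.sum_congr rfl (fun S _ => ?_)
  rw [EE_const_mul]
  have := cE_chi hp hp1 C S x
  rw [cE] at this
  rw [this]
  split_ifs <;> simp

lemma hat_cE {p : ℝ} (hp : 0 < p) (hp1 : p < 1) (C : Finset X) (g : (X → Bool) → ℝ)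
    (S : Finset X) :
    hat p (cE p C g) S = if S ⊆ C then hat p g S else 0 :=
  hat_of_sum hp hp1 (cE_eq_sum hp hp1 C g) S

/-- Functions with the same Fourier coefficients agree. -/
lemma eq_of_hat_eq {p : ℝ} (hp : 0 < p) (hp1 : p < 1) {g h : (X → Bool) → ℝ}
    (H : ∀ S, hat p g S = hat p h S) (x : X → Bool) : g x = h x := by
  rw [← sum_hat_mul_chi hp hp1 g x, ← sum_hat_mul_chi hp hp1 h x]
  simp only [H]

lemma cE_cE {p : ℝ} (hp : 0 < p) (hp1 : p < 1) (C D : Finset X) (g : (X → Bool) → ℝ)
    (x : X → Bool) : cE p C (cE p D g) x = cE p (C ∩ D) g x := by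
  refine eq_of_hat_eq hp hp1 (fun S => ?_) x
  rw [hat_cE hp hp1, hat_cE hp hp1, hat_cE hp hp1]
  by_cases h1 : S ⊆ C <;> by_cases h2 : S ⊆ D
  · rw [if_pos h1, if_pos h2, if_pos (Finset.subset_inter h1 h2)]
  · rw [if_pos h1, if_neg h2, if_neg (fun h => h2 (h.trans Finset.inter_subset_right))]
  · rw [if_neg h1, if_neg (fun h => h1 (h.trans Finset.inter_subset_left))]
  · rw [if_neg h1, if_neg (fun h => h1 (h.trans Finset.inter_subset_left))]

lemma abs_cE_le {p : ℝ} (hp : 0 < p) (hp1 : p < 1) (C : Finset X) (g : (X → Bool) → ℝ)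
    (x : X → Bool) : |cE p C g x| ≤ cE p C (fun z => |g z|) x := by
  rw [cE, cE, EE, EE]
  refine (Finset.abs_sum_le_sum_abs _ _).trans (le_of_eq ?_)
  refine Finset.sum_congr rfl (fun y _ => ?_)
  rw [abs_mul, abs_of_pos (weight_pos hp hp1 y)]

/-- Conditional expectation is an `L¹` contraction. -/
lemma EE_abs_cE_le {p : ℝ} (hp : 0 < p) (hp1 : p < 1) (C : Finset X) (g : (X → Bool) → ℝ) :
    EE p (fun x => |cE p C g x|) ≤ EE p (fun x => |g x|) := by
  rw [← EE_cE p C (fun x => |g x|)]
  exact EE_mono hp.le hp1.le (abs_cE_le hp hp1 C g)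

/-! ### Discrete derivative and energy -/

/-- Discrete derivative in the direction `e`. -/
def DD (e : X) (g : (X → Bool) → ℝ) (x : X → Bool) : ℝ :=
  g (Function.update x e true) - g (Function.update x e false)

/-- Energy in the direction `e`: the expected conditional variance. -/
noncomputable def energy (p : ℝ) (e : X) (g : (X → Bool) → ℝ) : ℝ :=
  p * (1 - p) * EE p (fun x => DD e g x ^ 2)

lemma cE_erase (p : ℝ) (e : X) (g : (X → Bool) → ℝ) (x : X → Bool) :
    cE p (Finset.univ.erase e) g x
      = p * g (Function.update x e true) + (1 - p) * g (Function.update x e false) := by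
  have h : ∀ y : X → Bool, glue (Finset.univ.erase e) x y = Function.update x e (y e) := by
    intro y
    funext j
    by_cases hj : j = e
    · subst hj; simp
    · simp [hj, Function.update_of_ne hj]
  rw [cE]
  simp only [h]
  exact EE_eval p e (fun b => g (Function.update x e b))

lemma DD_update (e : X) (g : (X → Bool) → ℝ) (x : X → Bool) (b : Bool) :
    DD e g (Function.update x e b) = DD e g x := by
  simp [DD, Function.update_idem]

/-- The residual `g - E_e g`. -/
noncomputable def Res (p : ℝ) (e : X) (g : (X → Bool) → ℝ) (x : X → Bool) : ℝ :=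
  g x - cE p (Finset.univ.erase e) g x

lemma Res_update_true (p : ℝ) (e : X) (g : (X → Bool) → ℝ) (x : X → Bool) :
    Res p e g (Function.update x e true) = (1 - p) * DD e g x := by
  simp only [Res, cE_erase, Function.update_idem, Function.update_self, DD]
  ring

lemma Res_update_false (p : ℝ) (e : X) (g : (X → Bool) → ℝ) (x : X → Bool) :
    Res p e g (Function.update x e false) = - p * DD e g x := by
  simp only [Res, cE_erase, Function.update_idem, Function.update_self, DD]
  ring

lemma energy_eq_EE_Res (p : ℝ) (e : X) (g : (X → Bool) → ℝ) :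
    energy p e g = EE p (fun x => Res p e g x ^ 2) := by
  rw [EE_update p e]
  simp only [Res_update_true, Res_update_false, mul_pow, neg_sq]
  rw [EE_const_mul, EE_const_mul, energy]
  ring

lemma EE_abs_Res (p : ℝ) (hp : 0 < p) (hp1 : p < 1) (e : X) (g : (X → Bool) → ℝ) :
    EE p (fun x => |Res p e g x|) = 2 * (p * (1 - p)) * EE p (fun x => |DD e g x|) := by
  rw [EE_update p e]
  simp only [Res_update_true, Res_update_false, abs_mul, abs_neg]
  rw [EE_const_mul, EE_const_mul, abs_of_pos hp, abs_of_pos (by linarith : 0 < 1 - p)]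
  ring

lemma hat_Res {p : ℝ} (hp : 0 < p) (hp1 : p < 1) (e : X) (g : (X → Bool) → ℝ) (S : Finset X) :
    hat p (Res p e g) S = if e ∈ S then hat p g S else 0 := by
  have h : Res p e g = fun x => g x - cE p (Finset.univ.erase e) g x := rfl
  rw [h, hat_sub, hat_cE hp hp1]
  by_cases he : e ∈ S
  · have : ¬ S ⊆ Finset.univ.erase e := by
      intro hs
      exact (Finset.mem_erase.mp (hs he)).1 rfl
    rw [if_neg this, if_pos he, sub_zero]
  · have : S ⊆ Finset.univ.erase e := by
      intro j hj
      refine Finset.mem_erase.mpr ⟨?_, Finset.mem_univ j⟩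
      rintro rfl
      exact he hj
    rw [if_pos this, if_neg he, sub_self]

/-- Energy on the Fourier side. -/
lemma energy_eq_sum {p : ℝ} (hp : 0 < p) (hp1 : p < 1) (e : X) (g : (X → Bool) → ℝ) :
    energy p e g = ∑ S : Finset X, if e ∈ S then hat p g S ^ 2 else 0 := by
  rw [energy_eq_EE_Res, EE_sq_eq hp hp1]
  refine Finset.sum_congr rfl (fun S _ => ?_)
  rw [hat_Res hp hp1]
  split_ifs <;> simp

/-- Sum of energies over a set of directions on the Fourier side. -/
lemma sum_energy_eq {p : ℝ} (hp : 0 < p) (hp1 : p < 1) (B : Finset X) (g : (X → Bool) → ℝ) :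
    ∑ e ∈ B, energy p e g = ∑ S : Finset X, ((S ∩ B).card : ℝ) * hat p g S ^ 2 := by
  simp only [energy_eq_sum hp hp1]
  rw [Finset.sum_comm]
  refine Finset.sum_congr rfl (fun S _ => ?_)
  rw [← Finset.sum_filter, Finset.sum_const, nsmul_eq_mul]
  congr 3
  ext e
  simp only [Finset.mem_filter, Finset.mem_inter]
  tauto

lemma energy_nonneg {p : ℝ} (hp : 0 < p) (hp1 : p < 1) (e : X) (g : (X → Bool) → ℝ) :
    0 ≤ energy p e g := by
  rw [energy_eq_EE_Res]
  exact EE_nonneg hp.le hp1.le (fun x => sq_nonneg _)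

/-- Poincaré: variance is at most the total energy. -/
lemma variance_le_energy {p : ℝ} (hp : 0 < p) (hp1 : p < 1) (g : (X → Bool) → ℝ) :
    EE p (fun x => g x ^ 2) - (EE p g) ^ 2 ≤ ∑ e, energy p e g := by
  rw [EE_sq_eq hp hp1, sum_energy_eq hp hp1]
  rw [← hat_empty p g, ← Finset.add_sum_erase _ _ (Finset.mem_univ (∅ : Finset X))]
  rw [add_sub_cancel_left]
  have h2 : ∑ S ∈ (Finset.univ : Finset (Finset X)).erase ∅, hat p g S ^ 2
      ≤ ∑ S ∈ (Finset.univ : Finset (Finset X)).erase ∅,
          ((S ∩ Finset.univ).card : ℝ) * hat p g S ^ 2 := by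
    refine Finset.sum_le_sum (fun S hS => ?_)
    have hS' : S.Nonempty := Finset.nonempty_iff_ne_empty.mpr (Finset.mem_erase.mp hS).1
    have : (1 : ℝ) ≤ ((S ∩ Finset.univ).card : ℝ) := by
      rw [Finset.inter_univ]
      exact_mod_cast Finset.card_pos.mpr hS'
    nlinarith [sq_nonneg (hat p g S)]
  refine h2.trans ?_
  exact Finset.sum_le_sum_of_subset_of_nonneg (Finset.erase_subset _ _)
    (fun S _ _ => mul_nonneg (by positivity) (sq_nonneg _))

end Crest.Agent.Lib.Sharp
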