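import Crest.Agent.Lib.Sharp.Chain
import Crest.Prelude.Def_HypergraphCube

/-!
# The vertex filtration of the `r`-uniform hypergraph cube
-/

set_option autoImplicit false

namespace Crest.Agent.Lib.Sharp

open Finset Crest.FinProb Crest.CombinatoricsR.HypergraphCube

/-- The real-valued indicator of a Boolean function. -/
def bF {X : Type*} (f : (X → Bool) → Bool) (x : X → Bool) : ℝ := if f x then 1 else 0

lemma bF_cases {X : Type*} (f : (X → Bool) → Bool) (x : X → Bool) :
    bF f x = 0 ∨ bF f x = 1 := by
  unfold bF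
  split_ifs <;> simp

section coordinates

variable {X : Type*} [Fintype X] [DecidableEq X]

lemma energy_perm {p : ℝ} (π : Equiv.Perm X) (F : (X → Bool) → ℝ)
    (hF : ∀ x, F (x ∘ π) = F x) (e : X) : energy p (π e) F = energy p e F := by
  have h : ∀ x, DD (π e) F x = DD e F (x ∘ π) := by
    intro x
    simp only [DD]
    have h1 : ∀ b, F (Function.update x (π e) b) = F (Function.update (x ∘ π) e b) := by
      intro b
      rw [← hF (Function.update x (π e) b)]
      congr 1
      exact Function.update_comp_eq_of_injective x π.injective e b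
    rw [h1, h1]
  simp only [energy, h]
  congr 1
  exact EE_comp_perm p π (fun x => DD e F x ^ 2)

lemma chi_map (p : ℝ) (π : Equiv.Perm X) (S : Finset X) (x : X → Bool) :
    chi p (S.map π.toEmbedding) x = chi p S (x ∘ π) := by
  simp [chi, Finset.prod_map]

lemma hat_map {p : ℝ} (π : Equiv.Perm X) (F : (X → Bool) → ℝ)
    (hF : ∀ x, F (x ∘ π) = F x) (S : Finset X) :
    hat p F (S.map π.toEmbedding) = hat p F S := by
  simp only [hat, chi_map]
  rw [← EE_comp_perm p π (fun x => F x * chi p S x)]
  refine EE_congr p (fun x => ?_)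
  rw [hF]

end coordinates

variable {n r : ℕ}

/-- Relabelling as a permutation of the slots. -/
def slotPerm (σ : Equiv.Perm (Fin n)) : Equiv.Perm (HyperedgeSlot n r) where
  toFun := relabelSlot σ
  invFun := relabelSlot σ⁻¹
  left_inv := by
    intro e
    apply Subtype.ext
    simp [relabelSlot, Finset.map_map]
  right_inv := by
    intro e
    apply Subtype.ext
    simp [relabelSlot, Finset.map_map]

@[simp] lemma slotPerm_val (σ : Equiv.Perm (Fin n)) (e : HyperedgeSlot n r) :
    (slotPerm σ e).1 = e.1.map σ.toEmbedding := rfl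

lemma mem_slotPerm (σ : Equiv.Perm (Fin n)) (e : HyperedgeSlot n r) (v : Fin n) :
    σ v ∈ (slotPerm σ e).1 ↔ v ∈ e.1 :=
  Finset.mem_map' σ.toEmbedding

lemma slotPerm_invol (σ : Equiv.Perm (Fin n)) (hσ : ∀ v, σ (σ v) = v) (e : HyperedgeSlot n r) :
    slotPerm σ (slotPerm σ e) = e := by
  apply Subtype.ext
  ext w
  simp only [slotPerm_val, Finset.mem_map, Equiv.coe_toEmbedding]
  constructor
  · rintro ⟨u, ⟨v, hv, rfl⟩, rfl⟩
    rwa [hσ]
  · intro hw
    exact ⟨σ w, ⟨w, hw, rfl⟩, hσ w⟩

lemma bF_comp_slotPerm {f : (HyperedgeSlot n r → Bool) → Bool} (hf : IsSymmetric f)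
    (σ : Equiv.Perm (Fin n)) (x : HyperedgeSlot n r → Bool) :
    bF f (x ∘ slotPerm σ) = bF f x := by
  have : f (x ∘ slotPerm σ) = f x := hf σ x
  simp [bF, this]

/-- Edges on the first `i` vertices. -/
def hY (n r i : ℕ) : Finset (HyperedgeSlot n r) :=
  Finset.univ.filter (fun e => ∀ v ∈ e.1, v.val < i)

/-- `hT S`: one plus the largest vertex touched by `S`. -/
def hT (n r : ℕ) (S : Finset (HyperedgeSlot n r)) : ℕ :=
  S.sup (fun e => e.1.sup (fun v => v.val + 1))

lemma hY_iff (S : Finset (HyperedgeSlot n r)) (j : ℕ) : S ⊆ hY n r j ↔ hT n r S ≤ j := by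
  simp only [hT, Finset.sup_le_iff]
  constructor
  · intro h e he v hv
    exact (Finset.mem_filter.mp (h he)).2 v hv
  · intro h e he
    exact Finset.mem_filter.mpr ⟨Finset.mem_univ e, fun v hv => h e he v hv⟩

/-- The vertex filtration as a chain. -/
def hChain (n r : ℕ) (hr : 1 ≤ r) : Chain (HyperedgeSlot n r) n where
  Y := hY n r
  T := hT n r
  le_iff := hY_iff
  T_pos := by
    intro S hS
    obtain ⟨e, he⟩ := Finset.nonempty_iff_ne_empty.mpr hS
    have hne : e.1.Nonempty := by
      rw [← Finset.card_pos, e.2]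
      omega
    obtain ⟨v, hv⟩ := hne
    have h1 : (e.1.sup (fun v => v.val + 1)) ≤ hT n r S :=
      Finset.le_sup (f := fun e : HyperedgeSlot n r => e.1.sup (fun v => v.val + 1)) he
    have h2 : v.val + 1 ≤ e.1.sup (fun v => v.val + 1) :=
      Finset.le_sup (f := fun v : Fin n => v.val + 1) hv
    omega
  T_empty := by simp [hT]
  T_le := by
    intro S
    apply Finset.sup_le
    intro e _
    apply Finset.sup_le
    intro v _
    exact v.2

/-- The coordinates joining `j` to the first `i` vertices. -/
def hZ (n r i : ℕ) (j : Fin n) : Finset (HyperedgeSlot n r) :=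
  Finset.univ.filter (fun e => j ∈ e.1 ∧ ∀ v ∈ e.1, v ≠ j → v.val < i)

lemma hY_succ (i : ℕ) (hi : i < n) : hY n r (i + 1) = hY n r i ∪ hZ n r i ⟨i, hi⟩ := by
  ext e
  simp only [hY, hZ, Finset.mem_filter, Finset.mem_univ, true_and, Finset.mem_union]
  constructor
  · intro h
    by_cases ha : (⟨i, hi⟩ : Fin n) ∈ e.1
    · right
      refine ⟨ha, fun v hv hne => ?_⟩
      have h1 := h v hv
      have h2 : v.val ≠ i := fun h3 => hne (Fin.ext h3)
      omega
    · left
      intro v hv
      have h1 := h v hv
      have h2 : v.val ≠ i := fun h3 => ha (by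
        have : v = ⟨i, hi⟩ := Fin.ext h3
        rwa [← this])
      omega
  · rintro (h | ⟨_, h⟩) v hv
    · have := h v hv
      omega
    · by_cases hva : v = ⟨i, hi⟩
      · rw [hva]; simp
      · have := h v hv hva
        omega

/-- The exchangeability estimate for hypergraphs. -/
theorem hyper_exchange {p : ℝ} (hp : 0 < p) (hp1 : p < 1)
    {f : (HyperedgeSlot n r → Bool) → Bool} (hf : IsSymmetric f)
    (i : ℕ) (hi : i < n) (ω : HyperedgeSlot n r → Bool) :
    ((n - i : ℕ) : ℝ) * EE p (fun x => dM p (bF f) (hY n r) i (glue (hY n r i) ω x) ^ 2)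
      ≤ 1 / 4 := by
  set a : Fin n := ⟨i, hi⟩ with ha
  have h := exchange hp hp1 (bF f)
    (fun x => by rcases bF_cases f x with h | h <;> rw [h]; norm_num)
    (fun x => by rcases bF_cases f x with h | h <;> rw [h]; norm_num)
    (hY n r i) (Finset.Ici a) (hZ n r i) a
    (by
      intro j hj k hk hjk
      rw [Finset.disjoint_left]
      intro e he1 he2
      obtain ⟨h1, h2⟩ := (Finset.mem_filter.mp he1).2
      obtain ⟨h3, h4⟩ := (Finset.mem_filter.mp he2).2
      have hk' := Finset.mem_Ici.mp hk
      have := h2 k h3 (Ne.symm hjk)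
      have h5 : a.val ≤ k.val := hk'
      simp only [ha] at h5
      omega)
    (fun j => slotPerm (Equiv.swap a j))
    (by
      intro j _ e
      exact slotPerm_invol _ (Equiv.swap_apply_self a j) e)
    (by
      intro j _ x
      exact bF_comp_slotPerm hf _ x)
    (by
      intro j hj e he
      apply Subtype.ext
      rw [slotPerm_val]
      have hfix : ∀ v ∈ e.1, Equiv.swap a j v = v := by
        intro v hv
        have h1 := (Finset.mem_filter.mp he).2 v hv
        have h2 : v ≠ a := by
          intro h; rw [h] at h1; simp [ha] at h1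
        have h3 : v ≠ j := by
          intro h
          rw [h] at h1
          have h5' : a ≤ j := Finset.mem_Ici.mp hj
          have h5 : a.val ≤ j.val := h5'
          simp only [ha] at h5
          omega
        exact Equiv.swap_apply_of_ne_of_ne h2 h3
      ext w
      simp only [Finset.mem_map, Equiv.coe_toEmbedding]
      constructor
      · rintro ⟨v, hv, rfl⟩
        rwa [hfix v hv]
      · intro hw
        exact ⟨w, hw, hfix w hw⟩)
    (by
      intro j hj e
      have hj'' : a ≤ j := Finset.mem_Ici.mp hj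
      have hj' : a.val ≤ j.val := hj''
      simp only [hZ, Finset.mem_filter, Finset.mem_univ, true_and]
      constructor
      · rintro ⟨h1, h2⟩
        have h3 : j ∈ e.1 := by
          have := (mem_slotPerm (Equiv.swap a j) e j).mp (by
            rw [Equiv.swap_apply_right]; exact h1)
          exact this
        refine ⟨h3, fun v hv hne => ?_⟩
        have h4 : Equiv.swap a j v ∈ (slotPerm (Equiv.swap a j) e).1 :=
          (mem_slotPerm _ e v).mpr hv
        have h5 : Equiv.swap a j v ≠ a := by
          intro h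
          apply hne
          have := (Equiv.swap a j).injective (h.trans (Equiv.swap_apply_right a j).symm)
          exact this
        have h6 := h2 _ h4 h5
        by_cases hva : v = a
        · rw [hva, Equiv.swap_apply_left] at h6
          simp only [ha] at hj'
          omega
        · rw [Equiv.swap_apply_of_ne_of_ne hva hne] at h6
          exact h6
      · rintro ⟨h1, h2⟩
        constructor
        · have := (mem_slotPerm (Equiv.swap a j) e j).mpr h1
          rwa [Equiv.swap_apply_right] at this
        · intro w hw hne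
          rw [slotPerm_val, Finset.mem_map] at hw
          obtain ⟨v, hv, rfl⟩ := hw
          have h3 : v ≠ j := by
            rintro rfl
            exact hne (Equiv.swap_apply_right a _)
          have h4 := h2 v hv h3
          have h5 : v ≠ a := by
            rintro rfl
            simp [ha] at h4
          show (Equiv.swap a j v).val < i
          rw [Equiv.swap_apply_of_ne_of_ne h5 h3]
          exact h4)
    ω
  rw [Fin.card_Ici] at h
  rw [← hY_succ i hi] at h
  exact h

/-- The energy around a vertex. -/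
noncomputable def vEn (p : ℝ) (F : (HyperedgeSlot n r → Bool) → ℝ) (v : Fin n) : ℝ :=
  ∑ e ∈ Finset.univ.filter (fun e : HyperedgeSlot n r => v ∈ e.1), energy p e F

lemma vEn_eq {p : ℝ} {f : (HyperedgeSlot n r → Bool) → Bool} (hf : IsSymmetric f)
    (v w : Fin n) : vEn p (bF f) v = vEn p (bF f) w := by
  unfold vEn
  refine Finset.sum_bij' (fun e _ => slotPerm (Equiv.swap v w) e)
    (fun e _ => slotPerm (Equiv.swap v w) e) ?_ ?_ ?_ ?_ ?_
  · intro e he
    simp only [Finset.mem_filter, Finset.mem_univ, true_and] at he ⊢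
    have := (mem_slotPerm (Equiv.swap v w) e v).mpr he
    rwa [Equiv.swap_apply_left] at this
  · intro e he
    simp only [Finset.mem_filter, Finset.mem_univ, true_and] at he ⊢
    have := (mem_slotPerm (Equiv.swap v w) e w).mpr he
    rwa [Equiv.swap_apply_right] at this
  · intro e _
    exact slotPerm_invol _ (Equiv.swap_apply_self v w) e
  · intro e _
    exact slotPerm_invol _ (Equiv.swap_apply_self v w) e
  · intro e _
    exact (energy_perm _ (bF f) (bF_comp_slotPerm hf _) e).symm

lemma sum_vEn (p : ℝ) (F : (HyperedgeSlot n r → Bool) → ℝ) :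
    ∑ v, vEn p F v = (r : ℝ) * ∑ e, energy p e F := by
  unfold vEn
  simp only [Finset.sum_filter]
  rw [Finset.sum_comm, Finset.mul_sum]
  refine Finset.sum_congr rfl (fun e _ => ?_)
  rw [← Finset.sum_filter, Finset.sum_const, nsmul_eq_mul]
  congr 2
  have : Finset.univ.filter (fun v => v ∈ e.1) = e.1 := by
    ext v; simp
  rw [this, e.2]

/-- Each vertex carries an `r/n` fraction of the energy. -/
lemma vEn_eq_frac {p : ℝ} {f : (HyperedgeSlot n r → Bool) → Bool} (hf : IsSymmetric f)
    (v : Fin n) : (n : ℝ) * vEn p (bF f) v = (r : ℝ) * ∑ e, energy p e (bF f) := by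
  rw [← sum_vEn]
  rw [Finset.sum_congr rfl (fun w _ => vEn_eq hf w v), Finset.sum_const, Finset.card_univ,
    Fintype.card_fin, nsmul_eq_mul]

/-- A martingale difference is bounded by the energy around its vertex. -/
lemma EE_dM_sq_le_vEn {p : ℝ} (hp : 0 < p) (hp1 : p < 1) (hr : 1 ≤ r)
    (F : (HyperedgeSlot n r → Bool) → ℝ) (i : ℕ) (hi : i < n) :
    EE p (fun x => dM p F (hY n r) i x ^ 2) ≤ vEn p F ⟨i, hi⟩ := by
  have h1 := EE_dM_sq (hChain n r hr) hp hp1 F i
  have h1' : EE p (fun x => dM p F (hY n r) i x ^ 2)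
      = ∑ S : Finset (HyperedgeSlot n r),
          if hT n r S = i + 1 then hat p F S ^ 2 else 0 := h1
  rw [h1', vEn, sum_energy_eq hp hp1]
  refine Finset.sum_le_sum (fun S _ => ?_)
  split_ifs with hS
  · -- some edge of S contains the vertex
    have h2 : (S ∩ Finset.univ.filter (fun e : HyperedgeSlot n r => (⟨i, hi⟩ : Fin n) ∈ e.1)).Nonempty := by
      by_contra hne
      rw [Finset.not_nonempty_iff_eq_empty] at hne
      have h3 : S ⊆ hY n r i := by
        intro e he
        refine Finset.mem_filter.mpr ⟨Finset.mem_univ e, fun v hv => ?_⟩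
        have h4 : hT n r S ≤ i + 1 := by omega
        have h5 := (hY_iff S (i + 1)).mpr h4 he
        have h6 := (Finset.mem_filter.mp h5).2 v hv
        have h7 : v.val ≠ i := by
          intro h8
          have h9 : v = ⟨i, hi⟩ := Fin.ext h8
          have : e ∈ S ∩ Finset.univ.filter
              (fun e : HyperedgeSlot n r => (⟨i, hi⟩ : Fin n) ∈ e.1) := by
            refine Finset.mem_inter.mpr ⟨he, Finset.mem_filter.mpr ⟨Finset.mem_univ e, ?_⟩⟩
            rwa [← h9]
          rw [hne] at this
          simp at this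
        omega
      have := (hY_iff S i).mp h3
      omega
    have h3 : (1 : ℝ) ≤ ((S ∩ Finset.univ.filter
        (fun e : HyperedgeSlot n r => (⟨i, hi⟩ : Fin n) ∈ e.1)).card : ℝ) := by
      exact_mod_cast Finset.card_pos.mpr h2
    nlinarith [sq_nonneg (hat p F S)]
  · positivity

/-- The counting bound for the last vertices. -/
lemma card_last_le (t : ℝ) (ht : 0 < t) :
    (((Finset.range n).filter (fun i => ¬ t ≤ ((n - i : ℕ) : ℝ))).card : ℝ) ≤ t := by
  set m := ⌈t⌉₊ with hm
  have hm1 : (m : ℝ) < t + 1 := Nat.ceil_lt_add_one ht.le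
  have hm2 : t ≤ m := Nat.le_ceil t
  have hcard : ((Finset.range n).filter (fun i => ¬ t ≤ ((n - i : ℕ) : ℝ))).card ≤ m - 1 := by
    have : ((Finset.range n).filter (fun i => ¬ t ≤ ((n - i : ℕ) : ℝ))).card
        ≤ (Finset.range (m - 1)).card := by
      apply Finset.card_le_card_of_injOn (fun i => n - i - 1)
      · intro i hi
        have hi' := Finset.mem_coe.mp hi
        obtain ⟨h1, h2⟩ := Finset.mem_filter.mp hi'
        have h1' := Finset.mem_range.mp h1
        push_neg at h2
        have h3 : ((n - i : ℕ) : ℝ) < m := lt_of_lt_of_le h2 hm2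
        have h4 : n - i < m := by exact_mod_cast h3
        apply Finset.mem_coe.mpr
        simp only [Finset.mem_range]
        omega
      · intro i hi j hj hij
        have h1 := Finset.mem_range.mp (Finset.mem_filter.mp (Finset.mem_coe.mp hi)).1
        have h2 := Finset.mem_range.mp (Finset.mem_filter.mp (Finset.mem_coe.mp hj)).1
        simp only at hij
        omega
    simpa using this
  have h5 : (((Finset.range n).filter (fun i => ¬ t ≤ ((n - i : ℕ) : ℝ))).card : ℝ)
      ≤ ((m - 1 : ℕ) : ℝ) := by exact_mod_cast hcard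
  refine h5.trans ?_
  by_cases hm0 : m = 0
  · rw [hm0]; simp [ht.le]
  · rw [Nat.cast_sub (by omega)]
    simp only [Nat.cast_one]
    linarith

/-- The last vertices carry little variance. -/
theorem last_vertices_le {p : ℝ} (hp : 0 < p) (hp1 : p < 1) (hr : 1 ≤ r) (hn : 0 < n)
    {f : (HyperedgeSlot n r → Bool) → Bool} (hf : IsSymmetric f) (t : ℝ) (ht : 0 < t) :
    ∑ i ∈ (Finset.range n).filter (fun i => ¬ t ≤ ((n - i : ℕ) : ℝ)),
        EE p (fun x => dM p (bF f) (hY n r) i x ^ 2)
      ≤ t * ((r : ℝ) / n * ∑ e, energy p e (bF f)) := by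
  have hn' : (0 : ℝ) < n := by exact_mod_cast hn
  have hE : ∀ i ∈ (Finset.range n).filter (fun i => ¬ t ≤ ((n - i : ℕ) : ℝ)),
      EE p (fun x => dM p (bF f) (hY n r) i x ^ 2)
        ≤ (r : ℝ) / n * ∑ e, energy p e (bF f) := by
    intro i hi
    have hi' := Finset.mem_range.mp (Finset.mem_filter.mp hi).1
    refine (EE_dM_sq_le_vEn hp hp1 hr (bF f) i hi').trans (le_of_eq ?_)
    have := vEn_eq_frac (p := p) hf ⟨i, hi'⟩
    field_simp
    linarith
  refine (Finset.sum_le_sum hE).trans ?_
  rw [Finset.sum_const, nsmul_eq_mul]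
  apply mul_le_mul_of_nonneg_right (card_last_le t ht)
  apply mul_nonneg (by positivity)
  exact Finset.sum_nonneg (fun e _ => energy_nonneg hp hp1 e _)

/-- The combined inequality for a symmetric Boolean function. -/
theorem hyper_main {p : ℝ} (hp : 0 < p) (hp1 : p < 1) (hr : 1 ≤ r) (hn : 0 < n)
    {f : (HyperedgeSlot n r → Bool) → Bool} (hf : IsSymmetric f) {t a : ℝ}
    (ht : 0 < t) (ha : 0 < a) (hb : 1 ≤ 4 * t * a ^ 2) :
    Real.log (4 * t * a ^ 2) *
        (EE p (fun x => bF f x ^ 2) - (EE p (bF f)) ^ 2
          - t * ((r : ℝ) / n * ∑ e, energy p e (bF f))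
          - 2 * a * ∑ e, energy p e (bF f))
      ≤ lsc p * (hChain n r hr).A p (bF f)
        + Real.log 2 * (EE p (fun x => bF f x ^ 2) - (EE p (bF f)) ^ 2) := by
  have h := chain_main (hChain n r hr) hp hp1 (bF f) (bF_cases f) ht ha hb
    (fun i hi _ ω => hyper_exchange hp hp1 hf i hi ω)
  refine le_trans ?_ h
  apply mul_le_mul_of_nonneg_left _ (Real.log_nonneg hb)
  have h2 := last_vertices_le hp hp1 hr hn hf t ht
  have h3 : (hChain n r hr).Y = hY n r := rfl
  rw [h3]
  linarith

end Crest.Agent.Lib.Sharp
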