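import Crest.Agent.Lib.Sharp.Fourier

/-!
# Log-Sobolev inequality on the biased cube (two-point bound, tensorization) and the
entropy/tail inequality.
-/

set_option autoImplicit false

namespace Crest.Agent.Lib.Sharp

open Finset Crest.FinProb

/-- `t log t`. -/
noncomputable def Phi (t : ℝ) : ℝ := t * Real.log t

/-- The log-Sobolev constant we use. -/
noncomputable def lsc (p : ℝ) : ℝ := 12 + 8 * Real.log (1 / min p (1 - p))

lemma mul_log_sub_le (A S : ℝ) (hA : 0 ≤ A) (hS : 0 < S) :
    A * (Real.log A - Real.log S) ≤ A * (A / S - 1) := by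
  rcases hA.eq_or_lt with rfl | hA'
  · simp
  · refine mul_le_mul_of_nonneg_left ?_ hA
    rw [← Real.log_div hA'.ne' hS.ne']
    exact Real.log_le_sub_one_of_pos (div_pos hA' hS)

lemma two_point_aux (p : ℝ) (hp : 0 < p) (hp2 : p ≤ 1 / 2) (a b : ℝ) (ha : 0 ≤ a) (hb : 0 ≤ b) :
    p * Phi (a ^ 2) + (1 - p) * Phi (b ^ 2) - Phi (p * a ^ 2 + (1 - p) * b ^ 2)
      ≤ (12 + 8 * Real.log (1 / p)) * (p * (1 - p) * (a - b) ^ 2) := by
  have hq : 1 / 2 ≤ 1 - p := by linarith
  have hq0 : 0 < 1 - p := by linarith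
  have hlog : 0 ≤ Real.log (1 / p) := by
    apply Real.log_nonneg
    rw [le_div_iff₀ hp]; linarith
  have hE0 : 0 ≤ p * (1 - p) * (a - b) ^ 2 := by positivity
  set A := a ^ 2 with hA
  set B := b ^ 2 with hB
  have hA0 : 0 ≤ A := sq_nonneg a
  have hB0 : 0 ≤ B := sq_nonneg b
  set S := p * A + (1 - p) * B with hSdef
  have hS0 : 0 ≤ S := by positivity
  rcases hS0.eq_or_lt with hS | hS
  · -- degenerate case
    have h1 : p * A = 0 := by
      have : 0 ≤ (1 - p) * B := by positivity
      have : 0 ≤ p * A := by positivity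
      linarith
    have h2 : (1 - p) * B = 0 := by
      have : 0 ≤ p * A := by positivity
      linarith
    have hA' : A = 0 := by
      rcases mul_eq_zero.mp h1 with h | h
      · exact absurd h hp.ne'
      · exact h
    have hB' : B = 0 := by
      rcases mul_eq_zero.mp h2 with h | h
      · exact absurd h hq0.ne'
      · exact h
    rw [← hS, hA', hB']
    simp only [Phi, zero_mul, mul_zero, sub_zero, add_zero]
    positivity
  have key : p * Phi A + (1 - p) * Phi B - Phi S
      = p * (A * (Real.log A - Real.log S)) + (1 - p) * (B * (Real.log B - Real.log S)) := by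
    simp only [Phi, hSdef]
    ring
  rw [key]
  by_cases hcase : A ≤ 4 * S
  · -- the chi-square regime
    have h1 := mul_log_sub_le A S hA0 hS
    have h2 := mul_log_sub_le B S hB0 hS
    have h3 : p * (A * (Real.log A - Real.log S)) + (1 - p) * (B * (Real.log B - Real.log S))
        ≤ p * (A * (A / S - 1)) + (1 - p) * (B * (B / S - 1)) := by
      have := mul_le_mul_of_nonneg_left h1 hp.le
      have := mul_le_mul_of_nonneg_left h2 hq0.le
      linarith
    have h4 : p * (A * (A / S - 1)) + (1 - p) * (B * (B / S - 1))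
        = p * (1 - p) * (A - B) ^ 2 / S := by
      rw [eq_div_iff hS.ne']
      have hS' : S ≠ 0 := hS.ne'
      field_simp
      simp only [hSdef]
      ring
    have h5 : (A - B) ^ 2 = (a - b) ^ 2 * (a + b) ^ 2 := by
      simp only [hA, hB]; ring
    have h6 : (a + b) ^ 2 ≤ 12 * S := by
      have hBS : B ≤ 2 * S := by
        have : (1 - p) * B ≤ S := by
          have : 0 ≤ p * A := by positivity
          linarith
        nlinarith
      nlinarith [sq_nonneg (a - b)]
    have h7 : p * (1 - p) * (A - B) ^ 2 / S ≤ 12 * (p * (1 - p) * (a - b) ^ 2) := by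
      rw [div_le_iff₀ hS, h5]
      have : p * (1 - p) * (a - b) ^ 2 * (a + b) ^ 2
          ≤ p * (1 - p) * (a - b) ^ 2 * (12 * S) :=
        mul_le_mul_of_nonneg_left h6 hE0
      nlinarith
    have h8 : 12 * (p * (1 - p) * (a - b) ^ 2)
        ≤ (12 + 8 * Real.log (1 / p)) * (p * (1 - p) * (a - b) ^ 2) := by
      have : 0 ≤ 8 * Real.log (1 / p) * (p * (1 - p) * (a - b) ^ 2) := by positivity
      nlinarith
    linarith
  · -- the large regime
    push_neg at hcase
    have hApos : 0 < A := by linarith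
    have hBS : B ≤ S := by
      by_contra hc
      push_neg at hc
      have : S = p * A + (1 - p) * B := hSdef
      have h1 : p * (4 * S) < p * A := mul_lt_mul_of_pos_left hcase hp
      have h2 : (1 - p) * S < (1 - p) * B := mul_lt_mul_of_pos_left hc hq0
      nlinarith
    have h1 : B * (Real.log B - Real.log S) ≤ 0 := by
      rcases hB0.eq_or_lt with h | h
      · rw [← h]; simp
      · have : Real.log B ≤ Real.log S := Real.log_le_log h hBS
        exact mul_nonpos_of_nonneg_of_nonpos hB0 (by linarith)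
    have h2 : Real.log A - Real.log S ≤ Real.log (1 / p) := by
      have hpA : p * A ≤ S := by
        have : 0 ≤ (1 - p) * B := by positivity
        linarith
      have h3 : Real.log (p * A) ≤ Real.log S := Real.log_le_log (by positivity) hpA
      rw [Real.log_mul hp.ne' hApos.ne'] at h3
      rw [one_div, Real.log_inv]
      linarith
    have h3 : p * (A * (Real.log A - Real.log S)) + (1 - p) * (B * (Real.log B - Real.log S))
        ≤ p * A * Real.log (1 / p) := by
      have h4 : (1 - p) * (B * (Real.log B - Real.log S)) ≤ 0 :=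
        mul_nonpos_of_nonneg_of_nonpos hq0.le h1
      have h5 : p * (A * (Real.log A - Real.log S)) ≤ p * (A * Real.log (1 / p)) :=
        mul_le_mul_of_nonneg_left (mul_le_mul_of_nonneg_left h2 hA0) hp.le
      nlinarith
    have h4 : b ≤ a / 2 := by
      have : b ^ 2 ≤ (a / 2) ^ 2 := by
        have : B ≤ A / 4 := by linarith
        calc b ^ 2 = B := rfl
          _ ≤ A / 4 := this
          _ = (a / 2) ^ 2 := by simp only [hA]; ring
      exact (pow_le_pow_iff_left₀ hb (by positivity) (by norm_num)).mp this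
    have h5 : A / 4 ≤ (a - b) ^ 2 := by
      have : a / 2 ≤ a - b := by linarith
      have h6 : (a / 2) ^ 2 ≤ (a - b) ^ 2 :=
        pow_le_pow_left₀ (by positivity) this 2
      calc A / 4 = (a / 2) ^ 2 := by simp only [hA]; ring
        _ ≤ _ := h6
    have h6 : p * A ≤ 8 * (p * (1 - p) * (a - b) ^ 2) := by
      have : p * (1 / 2) * (A / 4) ≤ p * (1 - p) * (a - b) ^ 2 := by
        apply mul_le_mul (mul_le_mul_of_nonneg_left hq hp.le) h5 (by positivity) (by positivity)
      nlinarith
    have h7 : p * A * Real.log (1 / p)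
        ≤ 8 * (p * (1 - p) * (a - b) ^ 2) * Real.log (1 / p) :=
      mul_le_mul_of_nonneg_right h6 hlog
    have h8 : 0 ≤ 12 * (p * (1 - p) * (a - b) ^ 2) := by positivity
    nlinarith

lemma log_one_div_min_nonneg (p : ℝ) (hp : 0 < p) (hp1 : p < 1) :
    0 ≤ Real.log (1 / min p (1 - p)) := by
  apply Real.log_nonneg
  have h0 : 0 < min p (1 - p) := lt_min hp (by linarith)
  rw [le_div_iff₀ h0]
  have := min_le_left p (1 - p)
  linarith

lemma lsc_nonneg (p : ℝ) (hp : 0 < p) (hp1 : p < 1) : 0 ≤ lsc p := by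
  have := log_one_div_min_nonneg p hp hp1
  unfold lsc
  linarith

lemma one_le_lsc (p : ℝ) (hp : 0 < p) (hp1 : p < 1) : 1 ≤ lsc p := by
  have := log_one_div_min_nonneg p hp hp1
  unfold lsc
  linarith

lemma two_point (p : ℝ) (hp : 0 < p) (hp1 : p < 1) (a b : ℝ) (ha : 0 ≤ a) (hb : 0 ≤ b) :
    p * Phi (a ^ 2) + (1 - p) * Phi (b ^ 2) - Phi (p * a ^ 2 + (1 - p) * b ^ 2)
      ≤ lsc p * (p * (1 - p) * (a - b) ^ 2) := by
  by_cases h : p ≤ 1 / 2
  · have : min p (1 - p) = p := min_eq_left (by linarith)
    rw [lsc, this]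
    exact two_point_aux p hp h a b ha hb
  · push_neg at h
    have hm : min p (1 - p) = 1 - p := min_eq_right (by linarith)
    rw [lsc, hm]
    have := two_point_aux (1 - p) (by linarith) (by linarith) b a hb ha
    have e1 : 1 - (1 - p) = p := by ring
    rw [e1] at this
    calc _ = (1 - p) * Phi (b ^ 2) + p * Phi (a ^ 2) - Phi ((1 - p) * b ^ 2 + p * a ^ 2) := by
          rw [add_comm (p * a ^ 2)]; ring
      _ ≤ _ := this
      _ = _ := by ring

/-- The numerical bound on the log-Sobolev constant. -/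
lemma lsc_sq_mul_le (p : ℝ) (hp : 0 < p) (hp1 : p < 1) :
    lsc p ^ 2 * (p * (1 - p)) ≤ 256 := by
  set m := min p (1 - p) with hm
  have hm0 : 0 < m := lt_min hp (by linarith)
  have hm1 : m ≤ 1 := (min_le_left _ _).trans hp1.le
  have hpq : p * (1 - p) ≤ m := by
    rcases le_total p (1 - p) with h | h
    · have : m = p := min_eq_left h
      rw [this]
      nlinarith
    · have : m = 1 - p := min_eq_right h
      rw [this]
      nlinarith
  have hs : 0 < √m := Real.sqrt_pos.mpr hm0
  have hss : √m * √m = m := Real.mul_self_sqrt hm0.le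
  have hL : Real.log (1 / m) ≤ 2 / √m - 2 := by
    have h1 : Real.log (1 / √m) ≤ 1 / √m - 1 :=
      Real.log_le_sub_one_of_pos (by positivity)
    have h2 : 1 / m = (1 / √m) * (1 / √m) := by
      rw [div_mul_div_comm, hss, one_mul]
    rw [h2, Real.log_mul (by positivity) (by positivity)]
    have : 2 / √m = 2 * (1 / √m) := by ring
    linarith
  have hL0 := log_one_div_min_nonneg p hp hp1
  rw [← hm] at hL0
  have hlsc : lsc p ≤ 16 / √m := by
    rw [lsc, ← hm]
    have : 16 / √m = 8 * (2 / √m) := by ring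
    rw [this]
    linarith
  have hlsc0 : 0 ≤ lsc p := lsc_nonneg p hp hp1
  have h3 : lsc p ^ 2 ≤ (16 / √m) ^ 2 := pow_le_pow_left₀ hlsc0 hlsc 2
  have h4 : (16 / √m) ^ 2 = 256 / m := by
    rw [div_pow, sq (√m), hss]; norm_num
  rw [h4] at h3
  calc lsc p ^ 2 * (p * (1 - p)) ≤ 256 / m * m := by
        apply mul_le_mul h3 hpq (mul_nonneg hp.le (by linarith)) (by positivity)
    _ = 256 := by field_simp

/-! ### Tensorization -/

variable {X : Type*} [Fintype X] [DecidableEq X]

/-- Entropy of a function. -/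
noncomputable def Ent (p : ℝ) (h : (X → Bool) → ℝ) : ℝ :=
  EE p (fun x => Phi (h x)) - Phi (EE p h)

/-- `G` depends only on the coordinates in `A`. -/
def DepOn (A : Finset X) (G : (X → Bool) → ℝ) : Prop :=
  ∀ x y, (∀ e ∈ A, x e = y e) → G x = G y

lemma energy_split (p : ℝ) (e e' : X) (he : e' ≠ e) (G : (X → Bool) → ℝ) :
    energy p e' G = p * energy p e' (fun x => G (Function.update x e true))
      + (1 - p) * energy p e' (fun x => G (Function.update x e false)) := by
  have h : ∀ (b : Bool) (x : X → Bool),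
      DD e' G (Function.update x e b) = DD e' (fun x => G (Function.update x e b)) x := by
    intro b x
    simp only [DD]
    rw [Function.update_comm he.symm b true x, Function.update_comm he.symm b false x]
  simp only [energy]
  rw [EE_update p e (fun x => DD e' G x ^ 2)]
  simp only [h]
  ring

lemma ls_tensor_aux {p : ℝ} (hp : 0 < p) (hp1 : p < 1) (c : ℝ) (hc0 : 0 ≤ c)
    (hc : ∀ a b : ℝ, 0 ≤ a → 0 ≤ b →
      p * Phi (a ^ 2) + (1 - p) * Phi (b ^ 2) - Phi (p * a ^ 2 + (1 - p) * b ^ 2)
        ≤ c * (p * (1 - p) * (a - b) ^ 2)) (A : Finset X) :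
    ∀ G : (X → Bool) → ℝ, DepOn A G →
      Ent p (fun x => G x ^ 2) ≤ c * ∑ e ∈ A, energy p e G := by
  induction A using Finset.induction_on with
  | empty =>
    intro G hG
    have hconst : ∀ x, G x = G (fun _ => true) := fun x => hG _ _ (by simp)
    simp only [hconst, Ent, EE_const]
    simp
  | insert e A he ih =>
    intro G hG
    set G1 : (X → Bool) → ℝ := fun x => G (Function.update x e true) with hG1
    set G0 : (X → Bool) → ℝ := fun x => G (Function.update x e false) with hG0
    have hdep : ∀ b : Bool, DepOn A (fun x => G (Function.update x e b)) := by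
      intro b x y hxy
      apply hG
      intro j hj
      by_cases hje : j = e
      · subst hje; simp
      · rw [Function.update_of_ne hje, Function.update_of_ne hje]
        exact hxy j ((Finset.mem_insert.mp hj).resolve_left hje)
    have h1 := ih G1 (hdep true)
    have h0 := ih G0 (hdep false)
    set u := EE p (fun x => G1 x ^ 2) with hu
    set v := EE p (fun x => G0 x ^ 2) with hv
    have hu0 : 0 ≤ u := EE_nonneg hp.le hp1.le (fun x => sq_nonneg _)
    have hv0 : 0 ≤ v := EE_nonneg hp.le hp1.le (fun x => sq_nonneg _)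
    set a := √u with ha
    set b := √v with hb
    have ha2 : a ^ 2 = u := Real.sq_sqrt hu0
    have hb2 : b ^ 2 = v := Real.sq_sqrt hv0
    have ha0 : 0 ≤ a := Real.sqrt_nonneg _
    have hb0 : 0 ≤ b := Real.sqrt_nonneg _
    have hsum : EE p (fun x => G x ^ 2) = p * u + (1 - p) * v := EE_update p e _
    have hent : EE p (fun x => Phi (G x ^ 2))
        = p * EE p (fun x => Phi (G1 x ^ 2)) + (1 - p) * EE p (fun x => Phi (G0 x ^ 2)) :=
      EE_update p e _
    have h2 := hc a b ha0 hb0
    rw [ha2, hb2] at h2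
    -- Minkowski
    have hCS := EE_mul_sq_le hp.le hp1.le G1 G0
    have hab : EE p (fun x => G1 x * G0 x) ≤ a * b := by
      by_contra hcon
      push_neg at hcon
      have hab0 : 0 ≤ a * b := mul_nonneg ha0 hb0
      have : (a * b) ^ 2 < (EE p (fun x => G1 x * G0 x)) ^ 2 :=
        pow_lt_pow_left₀ hcon hab0 (by norm_num)
      rw [mul_pow, ha2, hb2] at this
      linarith
    have hDD : EE p (fun x => DD e G x ^ 2) = u + v - 2 * EE p (fun x => G1 x * G0 x) := by
      have h3 : ∀ x, DD e G x ^ 2 = G1 x ^ 2 + G0 x ^ 2 - 2 * (G1 x * G0 x) := by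
        intro x
        simp only [DD, hG1, hG0]
        ring
      simp only [h3]
      rw [EE_sub, EE_add, EE_const_mul]
    have hmink : (a - b) ^ 2 ≤ EE p (fun x => DD e G x ^ 2) := by
      rw [hDD]
      nlinarith
    have hen : ∀ e' ∈ A, energy p e' G = p * energy p e' G1 + (1 - p) * energy p e' G0 := by
      intro e' he'
      apply energy_split
      rintro rfl
      exact he he'
    rw [Finset.sum_insert he, Finset.sum_congr rfl hen, Finset.sum_add_distrib,
      ← Finset.mul_sum, ← Finset.mul_sum]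
    have hpq : 0 ≤ p * (1 - p) := mul_nonneg hp.le (by linarith)
    have h4 : c * (p * (1 - p) * (a - b) ^ 2) ≤ c * energy p e G := by
      apply mul_le_mul_of_nonneg_left _ hc0
      rw [energy]
      exact mul_le_mul_of_nonneg_left hmink hpq
    have h5 := mul_le_mul_of_nonneg_left h1 hp.le
    have h6 := mul_le_mul_of_nonneg_left h0 (by linarith : (0 : ℝ) ≤ 1 - p)
    have h7 : Ent p (fun x => G x ^ 2)
        = p * Ent p (fun x => G1 x ^ 2) + (1 - p) * Ent p (fun x => G0 x ^ 2)
          + (p * Phi u + (1 - p) * Phi v - Phi (p * u + (1 - p) * v)) := by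
      simp only [Ent]
      rw [hent, hsum]
      ring
    rw [h7]
    nlinarith

/-- The log-Sobolev inequality on the biased cube. -/
lemma log_sobolev {p : ℝ} (hp : 0 < p) (hp1 : p < 1) (G : (X → Bool) → ℝ) :
    Ent p (fun x => G x ^ 2) ≤ lsc p * ∑ e, energy p e G := by
  apply ls_tensor_aux hp hp1 (lsc p) (lsc_nonneg p hp hp1) (two_point p hp hp1)
  intro x y hxy
  congr 1
  funext e
  exact hxy e (Finset.mem_univ e)

/-- Entropy controls large values of a function of small `L²` norm. -/
lemma tail_entropy {p : ℝ} (hp : 0 < p) (hp1 : p < 1) (G : (X → Bool) → ℝ) {a b : ℝ}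
    (ha : 0 < a) (hb : 0 < b) (hG : EE p (fun x => G x ^ 2) ≤ b * a ^ 2) :
    Real.log (1 / b) * EE p (fun x => G x ^ 2 * (if a ≤ |G x| then 1 else 0))
      ≤ Ent p (fun x => G x ^ 2) + Real.log 2 * EE p (fun x => G x ^ 2) := by
  set t := EE p (fun x => G x ^ 2) with ht
  have ht0 : 0 ≤ t := EE_nonneg hp.le hp1.le (fun x => sq_nonneg _)
  rcases ht0.eq_or_lt with h0 | hpos
  · -- the zero function
    have hz : ∀ x, G x = 0 := by
      intro x
      have h1 : ∑ y, bernoulliWeight p y * G y ^ 2 = 0 := h0.symm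
      have h2 := (Finset.sum_eq_zero_iff_of_nonneg
        (fun y _ => mul_nonneg (weight_nonneg hp.le hp1.le y) (sq_nonneg (G y)))).mp h1 x
        (Finset.mem_univ x)
      have h3 := (weight_pos hp hp1 x).ne'
      have h4 : G x ^ 2 = 0 := (mul_eq_zero.mp h2).resolve_left h3
      exact pow_eq_zero_iff (by norm_num) |>.mp h4
    have e1 : EE p (fun x => G x ^ 2 * (if a ≤ |G x| then (1 : ℝ) else 0)) = 0 := by
      simp [EE, hz]
    have e2 : Ent p (fun x => G x ^ 2) = 0 := by
      simp [Ent, EE, hz, Phi]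
    rw [e1, e2, ← h0]
    simp
  -- the main case
  set W : (X → Bool) → ℝ := fun x => if a ≤ |G x| then 1 else 0 with hW
  set ψ : (X → Bool) → ℝ := fun x => if a ≤ |G x| then 1 / (2 * b) else 1 / 2 with hψ
  have hψpos : ∀ x, 0 < ψ x := by
    intro x
    simp only [hψ]
    split_ifs <;> positivity
  have hW01 : ∀ x, 0 ≤ W x := by
    intro x
    simp only [hW]
    split_ifs <;> norm_num
  -- Markov
  have hMarkov : a ^ 2 * EE p W ≤ t := by
    rw [← EE_const_mul]
    apply EE_mono hp.le hp1.le
    intro x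
    simp only [hW]
    split_ifs with h
    · rw [mul_one]
      have : a ^ 2 ≤ |G x| ^ 2 := pow_le_pow_left₀ ha.le h 2
      rwa [sq_abs] at this
    · simp [sq_nonneg]
  have hPb : EE p W ≤ b := by
    have h1 : a ^ 2 * EE p W ≤ b * a ^ 2 := hMarkov.trans hG
    have h2 : 0 < a ^ 2 := by positivity
    nlinarith
  have hP0 : 0 ≤ EE p W := EE_nonneg hp.le hp1.le hW01
  have hψeq : ∀ x, ψ x = W x * (1 / (2 * b)) + (1 - W x) * (1 / 2) := by
    intro x
    simp only [hψ, hW]
    split_ifs <;> ring
  have hEψ : EE p ψ ≤ 1 := by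
    have h1 : EE p ψ = EE p W * (1 / (2 * b)) + (1 - EE p W) * (1 / 2) := by
      have hψ' : ψ = fun x => W x * (1 / (2 * b)) + (1 - W x) * (1 / 2) := funext hψeq
      rw [hψ', EE_add, EE_mul_const, EE_mul_const, EE_sub, EE_const]
    rw [h1]
    have h2 : EE p W * (1 / (2 * b)) ≤ 1 / 2 := by
      rw [mul_one_div, div_le_iff₀ (by positivity)]
      linarith
    linarith
  -- the pointwise inequality
  have hpt : ∀ x, G x ^ 2 * Real.log (ψ x)
      ≤ Phi (G x ^ 2) - G x ^ 2 * Real.log t + t * ψ x - G x ^ 2 := by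
    intro x
    have hsq : 0 ≤ G x ^ 2 := sq_nonneg _
    rcases hsq.eq_or_lt with h0 | hh
    · rw [← h0]
      simp only [Phi, zero_mul, mul_zero, sub_zero, zero_add]
      have := hψpos x
      positivity
    · have h1 : Real.log (t * ψ x / G x ^ 2) ≤ t * ψ x / G x ^ 2 - 1 :=
        Real.log_le_sub_one_of_pos (div_pos (mul_pos hpos (hψpos x)) hh)
      rw [Real.log_div (mul_pos hpos (hψpos x)).ne' hh.ne',
        Real.log_mul hpos.ne' (hψpos x).ne'] at h1
      have h2 := mul_le_mul_of_nonneg_left h1 hh.le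
      have hne : G x ^ 2 ≠ 0 := hh.ne'
      have h3 : G x ^ 2 * (t * ψ x / G x ^ 2 - 1) = t * ψ x - G x ^ 2 := by
        generalize G x ^ 2 = u at hne
        field_simp
      rw [h3] at h2
      simp only [Phi]
      nlinarith
  have hint := EE_mono hp.le hp1.le hpt
  have hrhs : EE p (fun x => Phi (G x ^ 2) - G x ^ 2 * Real.log t + t * ψ x - G x ^ 2)
      = Ent p (fun x => G x ^ 2) + t * (EE p ψ - 1) := by
    rw [EE_sub, EE_add, EE_sub, EE_mul_const, EE_const_mul, Ent, ← ht]
    simp only [Phi]
    ring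
  rw [hrhs] at hint
  -- left side
  have hlogψ : ∀ x, G x ^ 2 * Real.log (ψ x)
      = Real.log (1 / b) * (G x ^ 2 * W x) - Real.log 2 * G x ^ 2 := by
    intro x
    simp only [hψ, hW]
    split_ifs
    · have : Real.log (1 / (2 * b)) = Real.log (1 / b) - Real.log 2 := by
        rw [one_div, Real.log_inv, Real.log_mul (by norm_num) hb.ne', one_div, Real.log_inv]
        ring
      rw [this]
      ring
    · rw [one_div, Real.log_inv]
      ring
  simp only [hlogψ] at hint
  rw [EE_sub, EE_const_mul, EE_const_mul, ← ht] at hint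
  have h9 : t * (EE p ψ - 1) ≤ 0 :=
    mul_nonpos_of_nonneg_of_nonpos ht0 (by linarith)
  linarith

end Crest.Agent.Lib.Sharp
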