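import Crest.Agent.Lib.Sharp.Final
import Crest.Prelude.Def_RandomGraph

/-!
# Russo's formula and the sharp threshold for graph properties
-/

set_option autoImplicit false

namespace Crest.Agent.Lib.Sharp

open Finset Crest.FinProb Crest.CombinatoricsR.HypergraphCube Crest.CombinatoricsR.RandomGraph

section russo

variable {X : Type*} [Fintype X] [DecidableEq X]

lemma hasDerivAt_weight {p : ℝ} (hp : 0 < p) (hp1 : p < 1) (x : X → Bool) :
    HasDerivAt (fun q : ℝ => bernoulliWeight q x)
      (bernoulliWeight p x * ∑ e, if x e then 1 / p else -(1 / (1 - p))) p := by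
  have h : ∀ e ∈ (Finset.univ : Finset X),
      HasDerivAt (fun q : ℝ => if x e then q else 1 - q) (if x e then 1 else -1) p := by
    intro e _
    by_cases he : x e = true
    · simp only [if_pos he]
      exact hasDerivAt_id' p
    · simp only [if_neg he]
      exact (hasDerivAt_id' p).const_sub 1
  have h2 := HasDerivAt.fun_finsetProd h
  refine h2.congr_deriv ?_
  rw [Finset.mul_sum]
  refine Finset.sum_congr rfl (fun e _ => ?_)
  have h3 : bernoulliWeight p x
      = (if x e then p else 1 - p) * ∏ j ∈ Finset.univ.erase e, (if x j then p else 1 - p) :=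
    (Finset.mul_prod_erase _ (fun j => if x j then p else 1 - p) (Finset.mem_univ e)).symm
  rw [h3, smul_eq_mul]
  have hq : (1 - p) ≠ 0 := by linarith
  have hp' : p ≠ 0 := hp.ne'
  by_cases he : x e = true
  · simp only [if_pos he]
    field_simp
  · simp only [if_neg he]
    field_simp

lemma EE_mul_coord (p : ℝ) (hp : 0 < p) (hp1 : p < 1) (e : X) (g : (X → Bool) → ℝ) :
    EE p (fun x => g x * (if x e then 1 / p else -(1 / (1 - p)))) = EE p (DD e g) := by
  rw [EE_update p e]
  simp only [Function.update_self, if_true, Bool.false_eq_true, if_false]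
  rw [EE_mul_const, EE_mul_const]
  have h : DD e g = fun x => g (Function.update x e true) - g (Function.update x e false) := rfl
  rw [h, EE_sub]
  have hq : (1 - p) ≠ 0 := by linarith
  have hp' : p ≠ 0 := hp.ne'
  field_simp
  ring

/-- Russo's formula in general form. -/
lemma hasDerivAt_EE {p : ℝ} (hp : 0 < p) (hp1 : p < 1) (g : (X → Bool) → ℝ) :
    HasDerivAt (fun q => EE q g) (∑ e, EE p (DD e g)) p := by
  have h1 : ∀ x ∈ (Finset.univ : Finset (X → Bool)),
      HasDerivAt (fun q : ℝ => bernoulliWeight q x * g x)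
        ((bernoulliWeight p x * ∑ e, if x e then 1 / p else -(1 / (1 - p))) * g x) p :=
    fun x _ => (hasDerivAt_weight hp hp1 x).mul_const (g x)
  have h2 := HasDerivAt.fun_sum h1
  refine h2.congr_deriv ?_
  have h3 : ∑ e, EE p (DD e g)
      = ∑ e, EE p (fun x => g x * (if x e then 1 / p else -(1 / (1 - p)))) := by
    simp only [EE_mul_coord p hp hp1]
  rw [h3]
  simp only [EE]
  rw [Finset.sum_comm]
  refine Finset.sum_congr rfl (fun x _ => ?_)
  rw [Finset.mul_sum, Finset.sum_mul]
  exact Finset.sum_congr rfl (fun e _ => by ring)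

lemma EE_at_zero (g : (X → Bool) → ℝ) : EE 0 g = g (fun _ => false) := by
  unfold EE
  rw [Finset.sum_eq_single (fun _ => false)]
  · have : bernoulliWeight (0 : ℝ) (fun _ : X => false) = 1 := by
      simp [bernoulliWeight]
    rw [this, one_mul]
  · intro x _ hx
    have : ∃ e, x e = true := by
      by_contra hc
      push_neg at hc
      apply hx
      funext e
      simpa using hc e
    obtain ⟨e, he⟩ := this
    have h0 : bernoulliWeight (0 : ℝ) x = 0 :=
      Finset.prod_eq_zero (Finset.mem_univ e) (by simp [he])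
    rw [h0, zero_mul]
  · simp

lemma EE_at_one (g : (X → Bool) → ℝ) : EE 1 g = g (fun _ => true) := by
  unfold EE
  rw [Finset.sum_eq_single (fun _ => true)]
  · have : bernoulliWeight (1 : ℝ) (fun _ : X => true) = 1 := by
      simp [bernoulliWeight]
    rw [this, one_mul]
  · intro x _ hx
    have : ∃ e, x e = false := by
      by_contra hc
      push_neg at hc
      apply hx
      funext e
      simpa using hc e
    obtain ⟨e, he⟩ := this
    have h0 : bernoulliWeight (1 : ℝ) x = 0 :=
      Finset.prod_eq_zero (Finset.mem_univ e) (by simp [he])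
    rw [h0, zero_mul]
  · simp

/-- Reindexing coordinates along an equivalence. -/
lemma EE_equiv {Y : Type*} [Fintype Y] [DecidableEq Y] (p : ℝ) (e : Y ≃ X)
    (g : (Y → Bool) → ℝ) :
    EE p (fun x : X → Bool => g (x ∘ e)) = EE p g := by
  unfold EE
  have := Equiv.sum_comp (Equiv.arrowCongr e (Equiv.refl Bool))
    (fun x : X → Bool => bernoulliWeight p x * g (x ∘ e))
  rw [← this]
  refine Finset.sum_congr rfl (fun y _ => ?_)
  have h : (Equiv.arrowCongr e (Equiv.refl Bool)) y ∘ e = y := by
    funext j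
    simp [Equiv.arrowCongr]
  rw [h]
  congr 1
  exact Equiv.prod_comp e.symm (fun i : Y => if y i then p else 1 - p)

end russo

variable {n : ℕ}

/-- Unordered pairs of distinct vertices are the `2`-element subsets. -/
noncomputable def edgeEquiv (n : ℕ) : EdgeSlot n ≃ HyperedgeSlot n 2 :=
  Equiv.ofBijective
    (fun z => ⟨z.1.toFinset, Sym2.card_toFinset_of_not_isDiag z.1 z.2⟩)
    (by
      constructor
      · intro z z' h
        apply Subtype.ext
        apply Sym2.ext
        intro v
        have h1 : z.1.toFinset = z'.1.toFinset := congrArg Subtype.val h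
        rw [← Sym2.mem_toFinset, ← Sym2.mem_toFinset, h1]
      · rintro ⟨s, hs⟩
        obtain ⟨a, b, hab, rfl⟩ := Finset.card_eq_two.mp hs
        refine ⟨⟨s(a, b), by simpa using hab⟩, ?_⟩
        apply Subtype.ext
        exact Sym2.toFinset_mk_eq)

lemma edgeEquiv_val (z : EdgeSlot n) : (edgeEquiv n z).1 = z.1.toFinset := rfl

lemma graphOf_adj (ω : EdgeSlot n → Bool) (a b : Fin n) :
    (graphOf ω).Adj a b ↔ ∃ h : ¬ (s(a, b)).IsDiag, ω ⟨s(a, b), h⟩ = true := by
  simp only [graphOf, SimpleGraph.fromEdgeSet_adj, Set.mem_setOf_eq]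
  constructor
  · rintro ⟨h, _⟩
    exact h
  · intro h
    refine ⟨h, ?_⟩
    obtain ⟨h1, _⟩ := h
    simpa using h1

lemma relabel_edgeEquiv (σ : Equiv.Perm (Fin n)) (a b : Fin n) (h : ¬ (s(a, b)).IsDiag)
    (h' : ¬ (s(σ a, σ b)).IsDiag) :
    relabelSlot σ (edgeEquiv n ⟨s(a, b), h⟩) = edgeEquiv n ⟨s(σ a, σ b), h'⟩ := by
  apply Subtype.ext
  simp only [relabelSlot, edgeEquiv_val, Sym2.toFinset_mk_eq]
  ext v
  simp only [Finset.mem_map, Finset.mem_insert, Finset.mem_singleton, Equiv.coe_toEmbedding]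
  constructor
  · rintro ⟨u, hu | hu, rfl⟩
    · left; rw [hu]
    · right; rw [hu]
  · rintro (hv | hv)
    · exact ⟨a, Or.inl rfl, hv.symm⟩
    · exact ⟨b, Or.inr rfl, hv.symm⟩

lemma graphOf_relabel_adj (σ : Equiv.Perm (Fin n)) (x : HyperedgeSlot n 2 → Bool) (a b : Fin n) :
    (graphOf (relabel σ x ∘ edgeEquiv n)).Adj a b
      ↔ (graphOf (x ∘ edgeEquiv n)).Adj (σ a) (σ b) := by
  rw [graphOf_adj, graphOf_adj]
  have hdiag : ¬ (s(a, b)).IsDiag ↔ ¬ (s(σ a, σ b)).IsDiag := by
    simp [Sym2.mk_isDiag_iff]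
  constructor
  · rintro ⟨h, h2⟩
    refine ⟨hdiag.mp h, ?_⟩
    have := relabel_edgeEquiv σ a b h (hdiag.mp h)
    simp only [Function.comp, relabel] at h2 ⊢
    rwa [this] at h2
  · rintro ⟨h, h2⟩
    refine ⟨hdiag.mpr h, ?_⟩
    have := relabel_edgeEquiv σ a b (hdiag.mpr h) h
    simp only [Function.comp, relabel] at h2 ⊢
    rwa [this]

/-- The Boolean function of a graph property. -/
noncomputable def gfun (P : Set (SimpleGraph (Fin n))) (x : HyperedgeSlot n 2 → Bool) : Bool :=
  by classical exact decide (graphOf (x ∘ edgeEquiv n) ∈ P)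

lemma gfun_eq_true (P : Set (SimpleGraph (Fin n))) (x : HyperedgeSlot n 2 → Bool) :
    gfun P x = true ↔ graphOf (x ∘ edgeEquiv n) ∈ P := by
  simp [gfun]

lemma gfun_symm (P : Set (SimpleGraph (Fin n)))
    (hsymm : ∀ σ : Equiv.Perm (Fin n), ∀ G : SimpleGraph (Fin n), G ∈ P →
      G.map σ.toEmbedding ∈ P) : IsSymmetric (gfun P) := by
  intro σ x
  have h1 : (graphOf (relabel σ x ∘ edgeEquiv n)).map σ.toEmbedding
      = graphOf (x ∘ edgeEquiv n) := by
    ext u v
    rw [SimpleGraph.map_adj]
    constructor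
    · rintro ⟨a, b, h, rfl, rfl⟩
      exact (graphOf_relabel_adj σ x a b).mp h
    · intro h
      refine ⟨σ⁻¹ u, σ⁻¹ v, (graphOf_relabel_adj σ x _ _).mpr ?_, ?_, ?_⟩
      · simpa using h
      · simp
      · simp
  have h2 : (graphOf (x ∘ edgeEquiv n)).map (σ⁻¹).toEmbedding
      = graphOf (relabel σ x ∘ edgeEquiv n) := by
    ext u v
    rw [SimpleGraph.map_adj]
    constructor
    · rintro ⟨a, b, h, rfl, rfl⟩
      refine (graphOf_relabel_adj σ x _ _).mpr ?_
      simpa using h
    · intro h
      refine ⟨σ u, σ v, (graphOf_relabel_adj σ x u v).mp h, ?_, ?_⟩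
      · simp
      · simp
  have h3 : gfun P (relabel σ x) = true ↔ gfun P x = true := by
    rw [gfun_eq_true, gfun_eq_true]
    constructor
    · intro h
      rw [← h1]
      exact hsymm σ _ h
    · intro h
      rw [← h2]
      exact hsymm σ⁻¹ _ h
  cases h4 : gfun P (relabel σ x) <;> cases h5 : gfun P x <;> simp_all

lemma gfun_mono (P : Set (SimpleGraph (Fin n)))
    (hmono : ∀ G G' : SimpleGraph (Fin n), G ≤ G' → G ∈ P → G' ∈ P)
    (x y : HyperedgeSlot n 2 → Bool) (hxy : ∀ e, x e = true → y e = true)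
    (hx : gfun P x = true) : gfun P y = true := by
  rw [gfun_eq_true] at hx ⊢
  refine hmono _ _ ?_ hx
  intro a b hab
  rw [graphOf_adj] at hab ⊢
  obtain ⟨h, h2⟩ := hab
  exact ⟨h, hxy _ h2⟩

lemma gnpProb_eq (P : Set (SimpleGraph (Fin n))) (q : ℝ) :
    gnpProb n q P = EE q (bF (gfun P)) := by
  classical
  rw [gnpProb, bernoulliProb_eq_EE, ← EE_equiv q (edgeEquiv n)]
  refine EE_congr q (fun x => ?_)
  simp only [bF, Set.mem_setOf_eq]
  by_cases h : graphOf (x ∘ edgeEquiv n) ∈ P
  · have := (gfun_eq_true P x).mpr h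
    simp [h, this]
  · have : gfun P x ≠ true := fun h2 => h ((gfun_eq_true P x).mp h2)
    simp [h, this]

/-- Russo's formula for monotone Boolean functions. -/
lemma hasDerivAt_probTrue {p : ℝ} (hp : 0 < p) (hp1 : p < 1)
    (f : (HyperedgeSlot n 2 → Bool) → Bool)
    (hf : ∀ x y : HyperedgeSlot n 2 → Bool, (∀ e, x e = true → y e = true) →
      f x = true → f y = true) :
    HasDerivAt (fun q => EE q (bF f)) (totalInfluence p f) p := by
  have h1 := hasDerivAt_EE hp hp1 (bF f)
  refine h1.congr_deriv ?_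
  refine Finset.sum_congr rfl (fun e _ => ?_)
  classical
  rw [pivotalInfluence, bernoulliProb_eq_EE]
  refine EE_congr p (fun x => ?_)
  have h2 : f (Function.update x e false) = true → f (Function.update x e true) = true := by
    apply hf
    intro j hj
    by_cases hje : j = e
    · subst hje; simp
    · rw [Function.update_of_ne hje] at hj ⊢
      exact hj
  simp only [DD, bF, Set.mem_setOf_eq]
  cases h3 : f (Function.update x e true) <;> cases h4 : f (Function.update x e false) <;>
    simp_all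

/-- The sharp threshold theorem for graph properties. -/
theorem sharp_threshold (n : ℕ) (hn : 2 ≤ n)
    (P : Set (SimpleGraph (Fin n)))
    (hsymm : ∀ σ : Equiv.Perm (Fin n), ∀ G : SimpleGraph (Fin n), G ∈ P → G.map σ.toEmbedding ∈ P)
    (hmono : ∀ G G' : SimpleGraph (Fin n), G ≤ G' → G ∈ P → G' ∈ P)
    (hne : P.Nonempty) (hnu : P ≠ Set.univ) (ε : ℝ) (hε0 : 0 < ε) (hε : ε < 1 / 2)
    (p q : ℝ) (hp0 : 0 ≤ p) (hp1 : p ≤ 1) (hq0 : 0 ≤ q) (hq1 : q ≤ 1)
    (hp : ε ≤ gnpProb n p P)
    (hq : p + 2 ^ 19 / Real.log n ^ 2 * Real.log (1 / (2 * ε)) ≤ q) :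
    1 - ε ≤ gnpProb n q P := by
  have hnR : (2 : ℝ) ≤ n := by exact_mod_cast hn
  have hL : 0 < Real.log n := Real.log_pos (by linarith)
  set L := Real.log n with hLdef
  set f := gfun P with hfdef
  have hfmono := gfun_mono P hmono
  have hfsym : IsSymmetric f := gfun_symm P hsymm
  set μ : ℝ → ℝ := fun t => EE t (bF f) with hμ
  rw [gnpProb_eq] at hp ⊢
  -- nontriviality
  have htop : bF f (fun _ => true) = 1 := by
    obtain ⟨G, hG⟩ := hne
    have h1 : graphOf (fun _ : EdgeSlot n => true) = ⊤ := by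
      ext a b
      rw [graphOf_adj]
      simp only [SimpleGraph.top_adj]
      constructor
      · rintro ⟨h, _⟩
        simpa using h
      · intro h
        exact ⟨by simpa using h, trivial⟩
    have h2 : f (fun _ => true) = true := by
      rw [hfdef, gfun_eq_true]
      have h3 : ((fun _ => true) ∘ edgeEquiv n : EdgeSlot n → Bool) = fun _ => true := rfl
      rw [h3, h1]
      exact hmono G ⊤ le_top hG
    simp [bF, h2]
  have hbot : bF f (fun _ => false) = 0 := by
    obtain ⟨G, hG⟩ := (Set.ne_univ_iff_exists_notMem P).mp hnu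
    have h1 : graphOf (fun _ : EdgeSlot n => false) = ⊥ := by
      ext a b
      rw [graphOf_adj]
      simp
    have h2 : f (fun _ => false) ≠ true := by
      rw [hfdef]
      intro h
      rw [gfun_eq_true] at h
      have h3 : ((fun _ => false) ∘ edgeEquiv n : EdgeSlot n → Bool) = fun _ => false := rfl
      rw [h3, h1] at h
      exact hG (hmono ⊥ G bot_le h)
    simp [bF, h2]
  -- positivity of the step
  have hlog : 0 < Real.log (1 / (2 * ε)) := by
    apply Real.log_pos
    rw [lt_div_iff₀ (by positivity)]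
    linarith
  set Δ := 2 ^ 19 / L ^ 2 * Real.log (1 / (2 * ε)) with hΔ
  have hΔpos : 0 < Δ := by positivity
  have hp0' : 0 < p := by
    rcases hp0.eq_or_lt with h | h
    · exfalso
      rw [← h, EE_at_zero, hbot] at hp
      linarith
    · exact h
  have hpq : p < q := by linarith
  rcases hq1.eq_or_lt with hq1' | hq1'
  · rw [hq1', EE_at_one, htop]
    linarith
  -- the open interval
  have hp1' : p < 1 := by linarith
  have hbF0 : ∀ x, 0 ≤ bF f x := fun x => by
    rcases bF_cases f x with h | h <;> rw [h] <;> norm_num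
  have hbF1 : ∀ x, bF f x ≤ 1 := fun x => by
    rcases bF_cases f x with h | h <;> rw [h] <;> norm_num
  -- bounds on μ inside the interval
  have hμpos : ∀ t, 0 < t → t < 1 → 0 < μ t := by
    intro t ht ht1
    simp only [hμ, EE]
    apply Finset.sum_pos'
    · intro x _
      exact mul_nonneg (weight_nonneg ht.le ht1.le x) (hbF0 x)
    · refine ⟨fun _ => true, Finset.mem_univ _, ?_⟩
      rw [htop, mul_one]
      exact weight_pos ht ht1 _
  have hμlt : ∀ t, 0 < t → t < 1 → μ t < 1 := by
    intro t ht ht1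
    have h1 : 0 < EE t (fun x => 1 - bF f x) := by
      simp only [EE]
      apply Finset.sum_pos'
      · intro x _
        exact mul_nonneg (weight_nonneg ht.le ht1.le x) (by linarith [hbF1 x])
      · refine ⟨fun _ => false, Finset.mem_univ _, ?_⟩
        rw [hbot, sub_zero, mul_one]
        exact weight_pos ht ht1 _
    rw [EE_sub, EE_const] at h1
    simp only [hμ]
    linarith
  -- the logit
  set ℓ : ℝ → ℝ := fun t => Real.log (μ t) - Real.log (1 - μ t) with hℓ
  have hderiv : ∀ t ∈ Set.Ioo (0 : ℝ) 1,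
      HasDerivAt ℓ (totalInfluence t f / μ t + totalInfluence t f / (1 - μ t)) t := by
    rintro t ⟨ht, ht1⟩
    have h1 : HasDerivAt μ (totalInfluence t f) t := hasDerivAt_probTrue ht ht1 f hfmono
    have hlt := hμlt t ht ht1
    have hne : 1 - μ t ≠ 0 := by linarith
    have h2 := h1.log (hμpos t ht ht1).ne'
    have h3 := (h1.const_sub 1).log hne
    have h4 := h2.fun_sub h3
    refine h4.congr_deriv ?_
    rw [neg_div]
    ring
  -- the lower bound on the derivative
  set κ := L ^ 2 / 2 ^ 17 with hκ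
  have hderivge : ∀ t ∈ Set.Ioo (0 : ℝ) 1,
      κ ≤ totalInfluence t f / μ t + totalInfluence t f / (1 - μ t) := by
    rintro t ⟨ht, ht1⟩
    have h0 := hμpos t ht ht1
    have h1 := hμlt t ht ht1
    have h2 : 0 < 1 - μ t := by linarith
    have h3 := sharp_graph n hn t ht ht1 f hfsym
    rw [probTrue_eq] at h3
    have h4 : totalInfluence t f / μ t + totalInfluence t f / (1 - μ t)
        = totalInfluence t f / (μ t * (1 - μ t)) := by
      field_simp
      ring
    rw [h4, hκ, div_le_div_iff₀ (by norm_num) (by positivity)]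
    have h5 : L ^ 2 * (μ t * (1 - μ t)) ≤ 2 ^ 17 * totalInfluence t f := h3
    linarith
  have hcont : ContinuousOn ℓ (Set.Ioo (0 : ℝ) 1) :=
    fun t ht => (hderiv t ht).continuousAt.continuousWithinAt
  have hdiff : DifferentiableOn ℝ ℓ (interior (Set.Ioo (0 : ℝ) 1)) := by
    rw [interior_Ioo]
    exact fun t ht => (hderiv t ht).differentiableAt.differentiableWithinAt
  have hMVT := (convex_Ioo (0 : ℝ) 1).mul_sub_le_image_sub_of_le_deriv hcont hdiff
    (C := κ) (by
      rw [interior_Ioo]
      intro t ht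
      rw [(hderiv t ht).deriv]
      exact hderivge t ht)
    p ⟨hp0', hp1'⟩ q ⟨lt_of_le_of_lt hp0 hpq, hq1'⟩ hpq.le
  have hκpos : 0 < κ := by positivity
  have hκΔ : κ * Δ = 4 * Real.log (1 / (2 * ε)) := by
    rw [hκ, hΔ]
    have : L ≠ 0 := hL.ne'
    field_simp
    norm_num
  have hstep : 4 * Real.log (1 / (2 * ε)) ≤ ℓ q - ℓ p := by
    have h1 : κ * Δ ≤ κ * (q - p) := mul_le_mul_of_nonneg_left (by linarith) hκpos.le
    linarith
  have hlog2 : Real.log (1 / (2 * ε)) = - Real.log 2 - Real.log ε := by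
    rw [one_div, Real.log_inv, Real.log_mul (by norm_num) hε0.ne']
    ring
  by_contra hcon
  push_neg at hcon
  have hq0' : 0 < q := lt_of_le_of_lt hp0 hpq
  have hμq := hμpos q hq0' hq1'
  have hμq1 := hμlt q hq0' hq1'
  have hμp := hμpos p hp0' hp1'
  have hμp1 := hμlt p hp0' hp1'
  have h1ε : 0 < 1 - ε := by linarith
  have hμpε : ε ≤ μ p := hp
  have hμqε : μ q < 1 - ε := hcon
  have h1 : Real.log ε ≤ Real.log (μ p) := Real.log_le_log hε0 hμpε
  have h2 : Real.log (1 - μ p) ≤ Real.log (1 - ε) := Real.log_le_log (by linarith) (by linarith)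
  have h3 : Real.log (μ q) < Real.log (1 - ε) := Real.log_lt_log hμq hμqε
  have h4 : Real.log ε < Real.log (1 - μ q) := Real.log_lt_log hε0 (by linarith)
  have h5 : ℓ q - ℓ p = Real.log (μ q) - Real.log (1 - μ q)
      - (Real.log (μ p) - Real.log (1 - μ p)) := rfl
  have h6 : Real.log (4 * ε * (1 - ε)) ≤ 0 := by
    apply Real.log_nonpos
    · positivity
    · nlinarith [sq_nonneg (2 * ε - 1)]
  have h7 : Real.log (4 * ε * (1 - ε)) = 2 * Real.log 2 + Real.log ε + Real.log (1 - ε) := by
    rw [Real.log_mul (by positivity) h1ε.ne', Real.log_mul (by norm_num) hε0.ne']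
    have : (4 : ℝ) = 2 ^ 2 := by norm_num
    rw [this, Real.log_pow]
    push_cast
    ring
  rw [hlog2] at hstep
  linarith

end Crest.Agent.Lib.Sharp
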